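import Vale.Agent.P088.H599.J.Abs7

/-!
# P088, row U_ABS
-/

open MeasureTheory Set
open scoped ContDiff Matrix

noncomputable section

namespace Vale.Agent.P088.LR.U.H599

open Vale.Agent.P088.LR.CF Vale.Agent.P088.LR.CF.H599 Vale.Agent.P088.LR.U H158

/-- Row U_ABS. -/
theorem abs (hE : RowES2U) (_ : RowA2) (hA3 : RowA3) : RowABSU := by
  intro n N hn hN
  obtain ⟨M, C, hC0, hC⟩ := hE n N
  have hC' : ES2B n N M C := hC
  obtain ⟨R, K, hR, hK, Hs⟩ := step hA3 hn hN hC0 hC'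
  have hK0 : 0 < K := by linarith
  have hden : 0 < 2 * R + 2 * K * (2 ^ (n + 3 + 3) * (2 * K * C)) := by positivity
  set ε : ℝ := 1 / (2 * R + 2 * K * (2 ^ (n + 3 + 3) * (2 * K * C))) with hε
  have hε0 : 0 < ε := by rw [hε]; positivity
  have hRε : R * ε ≤ 1 / 2 := by
    rw [hε, mul_one_div, div_le_div_iff₀ hden (by norm_num)]
    have : 0 ≤ 2 * K * (2 ^ (n + 3 + 3) * (2 * K * C)) := by positivity
    linarith
  have hεa : 2 * K * ε * (2 ^ (n + 3 + 3) * (2 * K * C)) ≤ 1 := by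
    have h1 : 2 * K * ε * (2 ^ (n + 3 + 3) * (2 * K * C))
        = ε * (2 * K * (2 ^ (n + 3 + 3) * (2 * K * C))) := by ring
    rw [h1, hε, one_div, inv_mul_le_iff₀ hden, mul_one]
    linarith
  refine ⟨2 * n + 5, M + (n + 2 + n + 1), ε, hε0, ?_⟩
  intro Ω τ τi κ h q hB hτ hτi hκ σ s P₁ P sσ _ sP₁ sP hP₁ hP e1 e2 _ _ _ cP hq G D sG _ cG
    sD D0 tD eq nh nq
  have H : AD M ε Ω τ τi κ h q σ s P₁ P G D :=
    ⟨hB, hτ, hτi, hκ, sσ, sP₁, sP, hP₁, hP, e1, e2, cP, hq, sG, cG, sD, D0, tD, eq, nh, nq⟩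
  have hn1 : 1 ≤ n := by omega
  haveI : Nonempty (Fin n) := ⟨⟨0, hn1⟩⟩
  haveI : Nonempty (Fin N) := ⟨⟨0, hN⟩⟩
  -- the suprema
  set T₁ : Fin n × Fin n × Fin N × Fin N × Ix n → ℝ := fun p =>
    wt p.2.2.2.2 ^ (n + 2) * ‖cf 0 (fun x => h p.1 p.2.1 x p.2.2.1 p.2.2.2.1) p.2.2.2.2‖ with hT₁
  set T₂ : Fin n × Fin N × Fin N × Ix n → ℝ := fun p =>
    wt p.2.2.2 ^ (n + 1) * ‖cf 0 (fun x => q p.1 x p.2.1 p.2.2.1) p.2.2.2‖ with hT₂
  have hT₁ε : ∀ p, T₁ p ≤ ε := fun p =>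
    (term_le_nm ((H.gd.sh _ _ _ _).rd hA3).1 (n + 2) _).trans
      ((nm_mono ((H.gd.sh _ _ _ _).rd hA3).1 (by omega)).trans (nh _ _ _ _))
  have hT₂ε : ∀ p, T₂ p ≤ ε := fun p =>
    (term_le_nm ((H.gd.sq _ _ _).rd hA3).1 (n + 1) _).trans
      ((nm_mono ((H.gd.sq _ _ _).rd hA3).1 (by omega)).trans (nq _ _ _))
  have hb₁ : BddAbove (range T₁) := ⟨ε, by rintro _ ⟨p, rfl⟩; exact hT₁ε p⟩
  have hb₂ : BddAbove (range T₂) := ⟨ε, by rintro _ ⟨p, rfl⟩; exact hT₂ε p⟩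
  set a : ℝ := max (⨆ p, T₁ p) (⨆ p, T₂ p) with ha
  have hT₁a : ∀ p, T₁ p ≤ a := fun p => (le_ciSup hb₁ p).trans (le_max_left _ _)
  have hT₂a : ∀ p, T₂ p ≤ a := fun p => (le_ciSup hb₂ p).trans (le_max_right _ _)
  have hT₁0 : ∀ p, 0 ≤ T₁ p := fun p =>
    mul_nonneg (pow_nonneg (H501.wt_pos _).le _) (norm_nonneg _)
  have ha0 : 0 ≤ a := (hT₁0 (Classical.arbitrary _)).trans (hT₁a _)
  have haε : a ≤ ε := max_le (ciSup_le hT₁ε) (ciSup_le hT₂ε)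
  have bh : ∀ i j α β, Bd (n + 2) a fun x => h i j x α β := fun i j α β k =>
    hT₁a (i, j, α, β, k)
  have bq : ∀ i α β, Bd (n + 1) a fun x => q i x α β := fun i α β k => hT₂a (i, α, β, k)
  have hKε : ε ≤ 2 * K * ε := by
    have := mul_le_mul_of_nonneg_right hK hε0.le
    linarith
  have ha00 : a ≤ 0 := by
    refine H129.absorb (P := n + 3) (C := 2 * K * C) (e := 2 * K * ε) (by omega) (by positivity)
      ha0 hεa (haε.trans hKε) ?_
    intro t ht hta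
    have ht' : (1 : ℝ) ≤ t := by exact_mod_cast ht
    have hcond : C * (t : ℝ) ^ (n + 3) * a ≤ 1 := by
      have h1 : 0 ≤ C * (t : ℝ) ^ (n + 3) * a := by positivity
      have h2 := mul_le_mul_of_nonneg_right hK h1
      have h3 : 2 * K * C * (t : ℝ) ^ (n + 3) * a = 2 * (K * (C * (t : ℝ) ^ (n + 3) * a)) := by
        ring
      rw [h3] at hta
      linarith
    obtain ⟨s1, s2⟩ := Hs ε Ω τ τi κ h q σ s P₁ P G D H hε0.le (by linarith) a ha0 bh bq t ht'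
      hcond
    have hle : a ≤ R * ε * a + K * (C * (t : ℝ) ^ (n + 3) * a ^ 2
        + ((t : ℝ) ^ (n + 3))⁻¹ * ε) := by
      refine max_le (ciSup_le ?_) (ciSup_le ?_)
      · rintro ⟨i, j, α, β, k⟩
        exact s1 i j α β k
      · rintro ⟨i, α, β, k⟩
        exact s2 i α β k
    have hhalf : R * ε * a ≤ 1 / 2 * a := mul_le_mul_of_nonneg_right hRε ha0
    have h1 : 2 * K * C * (t : ℝ) ^ (n + 3) * a ^ 2 + ((t : ℝ) ^ (n + 3))⁻¹ * (2 * K * ε)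
        = 2 * (K * (C * (t : ℝ) ^ (n + 3) * a ^ 2 + ((t : ℝ) ^ (n + 3))⁻¹ * ε)) := by ring
    rw [h1]
    linarith
  have hz : ∀ {P : ℕ} {f : V n → ℂ}, Sb f → Bd P a f → ∀ x ∈ bal n, f x = 0 := by
    intro P f hf hB x hx
    have h0 : ∀ k, cf 0 f k = 0 := by
      intro k
      have h1 : wt k ^ P * ‖cf 0 f k‖ ≤ 0 := (hB k).trans ha00
      have h2 : 0 < wt k ^ P := pow_pos (H501.wt_pos k) _
      have h3 : ‖cf 0 f k‖ ≤ 0 := by
        by_contra h4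
        push Not at h4
        have := mul_pos h2 h4
        linarith
      exact norm_le_zero_iff.1 h3
    have h1 := (hf.rd hA3).2 x (H129.core_subset_cube (bal_sub hx))
    rw [h1]
    unfold Es
    simp [h0]
  constructor
  · intro i j x
    ext α β
    by_cases hx : x ∈ bal n
    · exact hz (H.gd.sh i j α β) (bh i j α β) x hx
    · exact (H.gd.sh i j α β).z x hx
  · intro i x
    ext α β
    by_cases hx : x ∈ bal n
    · exact hz (H.gd.sq i α β) (bq i α β) x hx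
    · exact (H.gd.sq i α β).z x hx

end Vale.Agent.P088.LR.U.H599
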