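import Vale.Agent.P088.H442.Defs3
import Vale.Agent.P088.H158.ConnA

/-!
# P088, joint local uniqueness for a conformally flat metric and a unitary connection: definitions
and rows (all `N`)
-/

open MeasureTheory Set
open scoped ContDiff Matrix

noncomputable section

namespace Vale.Agent.P088.LR.U

open CF H158

variable {n N : ℕ}

/-- The ball of radius `1/8` about the centre `(1/2, …, 1/2)` (inside the interior of `bal n`). -/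
def bls (n : ℕ) : Set (V n) := {x | ∑ j, (x j - 1 / 2) ^ 2 ≤ 1 / 64}

/-- Matrix valued functions. -/
abbrev MC (n N : ℕ) := V n → Matrix (Fin N) (Fin N) ℂ

/-- All entries have derivatives of order `≤ k` bounded by `ε`. -/
def ClC (k : ℕ) (ε : ℝ) (P : MC n N) : Prop := ∀ a b, Cl k ε fun x => P x a b

/-! ## Covariant derivatives on matrix functions (columns) -/

/-- `D_i U = ∂_i U + A_i U`. -/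
def cdC (A : Cn n N) (i : Fin n) (U : MC n N) : MC n N := fun x => pdm i U x + A i x * U x

/-- The flux `∑_j s_ij D_j U`. -/
def flC (s : MF n) (A : Cn n N) (U : MC n N) (i : Fin n) : MC n N :=
  fun x => ∑ j, (s x i j : ℂ) • cdC A j U x

/-- `L U = ∑_i D_i ∑_j s_ij D_j U`. -/
def LaC (s : MF n) (A : Cn n N) (U : MC n N) : MC n N := fun x => ∑ i, cdC A i (flC s A U i) x

/-- `L u` for vector functions. -/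
def lav (s : MF n) (A : Cn n N) (u : V n → Fin N → ℂ) (x : V n) : Fin N → ℂ :=
  ∑ i, cd A i (fun y => ∑ j, (s y i j : ℂ) • cd A j u y) x

/-- The form `∫_Ω s(d_A u, d_A v)`. -/
def ea (Ω : Set (V n)) (s : MF n) (A : Cn n N) (u v : V n → Fin N → ℂ) : ℂ :=
  ∫ x in Ω, ∑ i, ∑ j, (s x i j : ℂ) * (cd A i u x ⬝ᵥ star (cd A j v x))

/-- Orthogonality for `(s₁, A₁)`, `(s₂, A₂)`. -/
def OrU (Ω : Set (V n)) (s₁ : MF n) (A₁ : Cn n N) (s₂ : MF n) (A₂ : Cn n N) : Prop :=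
  ∀ u v : V n → Fin N → ℂ, ContDiff ℝ ∞ u → ContDiff ℝ ∞ v → (∀ x ∈ Ω, lav s₁ A₁ u x = 0) →
    (∀ x ∈ Ω, lav s₂ A₂ v x = 0) → ea Ω s₁ A₁ u v = ea Ω s₂ A₂ u v

/-! ## The harmonic frame -/

/-- `P = F* F`. -/
def PF (F : MC n N) : MC n N := fun x => (F x)ᴴ * F x

/-- `K_j = F* D_j F - (D_j F)* F`. -/
def KF (A : Cn n N) (F : MC n N) (j : Fin n) : MC n N :=
  fun x => (F x)ᴴ * cdC A j F x - (cdC A j F x)ᴴ * F x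

/-- `T_ij = s_ij P`. -/
def TF (s : MF n) (F : MC n N) (i j : Fin n) : MC n N := fun x => (s x i j : ℂ) • PF F x

/-- `κ_i = ∑_j s_ij K_j`. -/
def qF (s : MF n) (A : Cn n N) (F : MC n N) (i : Fin n) : MC n N :=
  fun x => ∑ j, (s x i j : ℂ) • KF A F j x

/-- `M u = ∑_i ∂_i (∑_j T_ij ∂_j u) + ∑_i κ_i ∂_i u` on vector functions (columns). -/
def Mo (T : Fin n → Fin n → MC n N) (κ : Fin n → MC n N) (u : V n → Fin N → ℂ) (x : V n) :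
    Fin N → ℂ :=
  ∑ i, pd i (fun y => ∑ j, T i j y *ᵥ pd j u y) x + ∑ i, κ i x *ᵥ pd i u x

/-- The transposed operator on rows: `∑_i ∂_i (∑_j (∂_j w) T_ji) - ∑_i (∂_i w) κ_i`. -/
def Mt (T : Fin n → Fin n → MC n N) (κ : Fin n → MC n N) (w : V n → Fin N → ℂ) (x : V n) :
    Fin N → ℂ :=
  ∑ i, pd i (fun y => ∑ j, pd j w y ᵥ* T j i y) x - ∑ i, pd i w x ᵥ* κ i x

/-- `M Y` for matrix functions. -/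
def MoC (T : Fin n → Fin n → MC n N) (κ : Fin n → MC n N) (Y : MC n N) : MC n N := fun x =>
  ∑ i, pdm i (fun y => ∑ j, T i j y * pdm j Y y) x + ∑ i, κ i x * pdm i Y x

/-- Orthogonality in the harmonic frame. -/
def StU (Ω : Set (V n)) (T₁ : Fin n → Fin n → MC n N) (κ₁ : Fin n → MC n N)
    (T₂ : Fin n → Fin n → MC n N) (κ₂ : Fin n → MC n N) : Prop :=
  ∀ u w : V n → Fin N → ℂ, ContDiff ℝ ∞ u → ContDiff ℝ ∞ w → (∀ x ∈ Ω, Mo T₁ κ₁ u x = 0) →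
    (∀ x ∈ Ω, Mt T₂ κ₂ w x = 0) →
    ∫ x in Ω, ((∑ i, ∑ j, pd j w x ⬝ᵥ ((T₂ j i x - T₁ j i x) *ᵥ pd i u x)) -
      ∑ i, w x ⬝ᵥ ((κ₂ i x - κ₁ i x) *ᵥ pd i u x)) = 0

/-- `τ · 1`. -/
def dg (τ : MC n N) (i j : Fin n) : MC n N := fun x => if i = j then τ x else 0

/-- The push-forward of a connection under `H = id + w`, `K = H⁻¹`. -/
def pfo (A : Cn n N) (K : V n → V n) : Cn n N := fun i y => ∑ j, ((pd i K y j : ℝ) : ℂ) • A j (K y)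

/-- The reduced data: background `τ · 1, κ`, difference `h, q`. -/
structure BkU (Ω : Set (V n)) (τ τi : MC n N) (κ : Fin n → MC n N) (h : Fin n → Fin n → MC n N)
    (q : Fin n → MC n N) : Prop where
  op : IsOpen Ω
  sub : Ω ⊆ bls n
  sτ : SmC τ
  si : SmC τi
  inv : ∀ x, τ x * τi x = 1
  sκ : ∀ i, SmC (κ i)
  sh : ∀ i j, SmC (h i j)
  sq : ∀ i, SmC (q i)
  sym : ∀ i j, h i j = h j i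
  h0 : ∀ i j, ∀ x ∉ Ω, h i j x = 0
  q0 : ∀ i, ∀ x ∉ Ω, q i x = 0
  dq : ∀ x, ∑ i, pdm i (q i) x = 0
  st : StU Ω (dg τ) κ (fun i j x => dg τ i j x + h i j x) (fun i x => κ i x + q i x)

/-! ## Rows (literal statements) -/

/-- (U_ORT) equal data give the orthogonality. -/
def RowORT : Prop := ∀ {n N : ℕ} (Ω : Set (V n)), IsOpen Ω → Bornology.IsBounded Ω →
  ∀ g₁ g₂ : MF n, SmM g₁ → SmM g₂ → (∀ x, (g₁ x).PosDef) → (∀ x, (g₂ x).PosDef) →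
  ∀ A₁ A₂ : Cn n N, SmU A₁ → SmU A₂ → SDU Ω g₁ A₁ g₂ A₂ → OrU Ω (sg g₁) A₁ (sg g₂) A₂

/-- (U_WK) pointwise equation implies the weak equation, both slots. -/
def RowWK : Prop := ∀ {n N : ℕ} (Ω : Set (V n)), IsOpen Ω → Bornology.IsBounded Ω →
  ∀ s : MF n, SmM s → (∀ x, (s x).IsSymm) → ∀ A : Cn n N, SmU A →
  ∀ u φ : V n → Fin N → ℂ, ContDiff ℝ ∞ u → ContDiff ℝ ∞ φ → (∀ x ∈ Ω, lav s A u x = 0) →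
  (∀ x ∈ frontier Ω, φ x = 0) → ea Ω s A u φ = 0 ∧ ea Ω s A φ u = 0

/-- (U_G2) harmonic frame and harmonic coordinates of both pairs, equal off `Ω`. -/
def RowG2U : Prop := ∀ (n N M : ℕ), 1 ≤ n → ∃ C ε₀ : ℝ, 0 < C ∧ 0 < ε₀ ∧ ∀ (Ω : Set (V n)),
  IsOpen Ω → interior (closure Ω) = Ω → Ω ⊆ core n → ∀ s₁ s₂ : MF n, SmM s₁ → SmM s₂ →
  (∀ x, (s₁ x).IsSymm) → (∀ x, (s₂ x).IsSymm) → (∀ x ∉ core n, s₁ x = 1) →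
  (∀ x ∉ Ω, s₂ x = s₁ x) → ∀ A₁ A₂ : Cn n N, SmU A₁ → SmU A₂ →
  (∀ i, ∀ x ∉ core n, A₁ i x = 0) → (∀ i, ∀ x ∉ Ω, A₂ i x = A₁ i x) → OrU Ω s₁ A₁ s₂ A₂ →
  ∀ δ, 0 ≤ δ → δ ≤ ε₀ →
  (∀ i j, nm M (cf 0 (ent s₁ i j)) ≤ δ) → (∀ i j, nm M (cf 0 (ent s₂ i j)) ≤ δ) →
  (∀ i a b, nm M (cf 0 (fun x => A₁ i x a b)) ≤ δ) →
  (∀ i a b, nm M (cf 0 (fun x => A₂ i x a b)) ≤ δ) →
  ∃ (F₁ F₂ : MC n N) (X₁ X₂ : Fin n → MC n N), SmC F₁ ∧ SmC F₂ ∧ (∀ a, SmC (X₁ a)) ∧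
    (∀ a, SmC (X₂ a)) ∧ (∀ x ∉ Ω, F₂ x = F₁ x) ∧ (∀ a, ∀ x ∉ Ω, X₂ a x = X₁ a x) ∧
    ClC (M + 1) (C * δ) (fun x => F₁ x - 1) ∧ ClC (M + 1) (C * δ) (fun x => F₂ x - 1) ∧
    (∀ a, ClC (M + 1) (C * δ) (fun x => X₁ a x - (x a : ℂ) • 1)) ∧
    (∀ a, ClC (M + 1) (C * δ) (fun x => X₂ a x - (x a : ℂ) • 1)) ∧
    (∀ x ∈ cube n, LaC s₁ A₁ F₁ x = 0) ∧ (∀ x ∈ cube n, LaC s₂ A₂ F₂ x = 0) ∧
    (∀ a, ∀ x ∈ cube n, LaC s₁ A₁ (X₁ a) x = 0) ∧ ∀ a, ∀ x ∈ cube n, LaC s₂ A₂ (X₂ a) x = 0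

/-- (U_INV) the inverse of a matrix function near `1`. -/
def RowINV : Prop := ∀ (n N k : ℕ), ∃ C ε₀ : ℝ, 0 < C ∧ 0 < ε₀ ∧ ∀ F : MC n N, SmC F →
  ∀ δ, 0 ≤ δ → δ ≤ ε₀ → ClC k δ (fun x => F x - 1) → (∀ x, IsUnit (F x).det) ∧
    SmC (fun x => (F x)⁻¹) ∧ ClC k (C * δ) (fun x => (F x)⁻¹ - 1)

/-- (U_COO) the coordinates `(1/N) Re tr (F⁻¹ X_a) = x_a + w_a`, cut off. -/
def RowCOO : Prop := ∀ (n N k : ℕ), 1 ≤ N → ∃ C ε₀ : ℝ, 0 < C ∧ 0 < ε₀ ∧ ∀ (Ω : Set (V n)),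
  Ω ⊆ core n → ∀ (F₁ F₂ : MC n N) (X₁ X₂ : Fin n → MC n N), SmC F₁ → SmC F₂ →
  (∀ a, SmC (X₁ a)) → (∀ a, SmC (X₂ a)) → (∀ x ∉ Ω, F₂ x = F₁ x) →
  (∀ a, ∀ x ∉ Ω, X₂ a x = X₁ a x) → ∀ δ, 0 ≤ δ → δ ≤ ε₀ →
  ClC k δ (fun x => F₁ x - 1) → ClC k δ (fun x => F₂ x - 1) →
  (∀ a, ClC k δ (fun x => X₁ a x - (x a : ℂ) • 1)) →
  (∀ a, ClC k δ (fun x => X₂ a x - (x a : ℂ) • 1)) →
  ∃ w₁ w₂ : V n → V n, ContDiff ℝ ∞ w₁ ∧ ContDiff ℝ ∞ w₂ ∧ (∀ x ∉ Ω, w₂ x = w₁ x) ∧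
    Cl k (C * δ) w₁ ∧ Cl k (C * δ) w₂ ∧
    (∀ x ∈ core n, ∀ a, (N : ℝ) * (x a + w₁ x a) = (((F₁ x)⁻¹ * X₁ a x).trace).re) ∧
    ∀ x ∈ core n, ∀ a, (N : ℝ) * (x a + w₂ x a) = (((F₂ x)⁻¹ * X₂ a x).trace).re

/-- (U_PU) the push-forward of a pair. -/
def RowPUU : Prop := ∀ {n N : ℕ} (Ω : Set (V n)), IsOpen Ω → Ω ⊆ core n →
  interior (closure Ω) = Ω → ∀ s₁ s₂ : MF n, SmM s₁ → SmM s₂ → (∀ x, (s₁ x).IsSymm) →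
  (∀ x, (s₂ x).IsSymm) → (∀ x ∉ Ω, s₂ x = s₁ x) → ∀ A₁ A₂ : Cn n N, SmU A₁ → SmU A₂ →
  (∀ i, ∀ x ∉ Ω, A₂ i x = A₁ i x) → ∀ w K, Dif Ω w K →
  SmM (psh s₂ w K) ∧ (∀ x, (psh s₂ w K x).IsSymm) ∧ (∀ x ∉ Ω, psh s₂ w K x = s₁ x) ∧
    SmU (pfo A₂ K) ∧ (∀ i, ∀ x ∉ Ω, pfo A₂ K i x = A₁ i x) ∧
    (OrU Ω s₁ A₁ s₂ A₂ → OrU Ω s₁ A₁ (psh s₂ w K) (pfo A₂ K)) ∧
    ∀ U : MC n N, SmC U → SmC (fun y => U (K y)) ∧ ((∀ x ∈ Ω, LaC s₂ A₂ U x = 0) →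
      ∀ x ∈ Ω, LaC (psh s₂ w K) (pfo A₂ K) (fun y => U (K y)) x = 0)

/-- (U_RED) the reduction to the harmonic frame. -/
def RowREDU : Prop := ∀ {n N : ℕ} (Ω : Set (V n)), IsOpen Ω → Bornology.IsBounded Ω →
  interior (closure Ω) = Ω → ∀ s₁ s₂ : MF n, SmM s₁ → SmM s₂ → (∀ x, (s₁ x).IsSymm) →
  (∀ x, (s₂ x).IsSymm) → (∀ x ∉ Ω, s₂ x = s₁ x) → ∀ A₁ A₂ : Cn n N, SmU A₁ → SmU A₂ →
  (∀ i, ∀ x ∉ Ω, A₂ i x = A₁ i x) → ∀ F₁ F₂ : MC n N, SmC F₁ → SmC F₂ →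
  (∀ x, IsUnit (F₁ x).det) → (∀ x, IsUnit (F₂ x).det) → (∀ x ∉ Ω, F₂ x = F₁ x) →
  (∀ x ∈ Ω, LaC s₁ A₁ F₁ x = 0) → (∀ x ∈ Ω, LaC s₂ A₂ F₂ x = 0) → OrU Ω s₁ A₁ s₂ A₂ →
  (∀ x ∈ Ω, ∑ i, pdm i (qF s₁ A₁ F₁ i) x = 0) ∧ (∀ x ∈ Ω, ∑ i, pdm i (qF s₂ A₂ F₂ i) x = 0) ∧
  StU Ω (TF s₁ F₁) (qF s₁ A₁ F₁) (TF s₂ F₂) (qF s₂ A₂ F₂)

/-- (U_GAU) the equation in the harmonic frame. -/
def RowGAU : Prop := ∀ {n N : ℕ} (Ω : Set (V n)), IsOpen Ω → ∀ s : MF n, SmM s →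
  (∀ x, (s x).IsSymm) → ∀ A : Cn n N, SmU A → ∀ F Y : MC n N, SmC F → SmC Y →
  (∀ x ∈ Ω, LaC s A F x = 0) → (∀ x ∈ Ω, LaC s A (fun y => F y * Y y) x = 0) →
  ∀ x ∈ Ω, MoC (TF s F) (qF s A F) Y x = 0

/-- (U_ESF) the estimate in the frame `e_{i₀}`. -/
def RowESFU : Prop := ∀ n N : ℕ, ∃ (M : ℕ) (C : ℝ), 0 < C ∧ ∀ (i₀ : Fin n) (Ω : Set (V n))
  (τ τi : MC n N) (κ : Fin n → MC n N) (h : Fin n → Fin n → MC n N) (q : Fin n → MC n N),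
  BkU Ω τ τi κ h q → ∀ a b : ℝ, ClC M b (fun x => τ x - 1) → ClC M b (fun x => τi x - 1) →
  (∀ i, ClC M b (κ i)) → C * b ≤ 1 →
  (∀ i j α β, ∀ ζ : V n, wr ζ ^ (n + 2) * ‖ft (fun x => h i j x α β) ζ‖ ≤ a) →
  (∀ i α β, ∀ ζ : V n, wr ζ ^ (n + 1) * ‖ft (fun x => q i x α β) ζ‖ ≤ a) →
  ∀ ξ : V n, ξ i₀ = 0 → 1 ≤ nr ξ → C * nr ξ * a ≤ 1 → ∀ α β : Fin N,
  wr ξ ^ (n + 2) * ‖((nr ξ : ℝ) : ℂ) ^ 2 * ft (fun x => h i₀ i₀ x α β) ξ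
      + ∑ i, ∑ j, (ξ i : ℂ) * ξ j * ft (fun x => h i j x α β) ξ‖
    ≤ C * nr ξ ^ 2 * (b * a) + C * nr ξ ^ 3 * a ^ 2 * wr ξ ^ (n + 2) ∧
  wr ξ ^ (n + 2) * (nr ξ * ‖ft (fun x => q i₀ x α β) ξ‖)
    ≤ C * nr ξ ^ 2 * (b * a) + C * nr ξ ^ 3 * a ^ 2 * wr ξ ^ (n + 2)

/-- (U_ROT) the estimate for every real unit vector `v ⊥ ξ`; data on the integers. -/
def RowES2U : Prop := ∀ n N : ℕ, ∃ (M : ℕ) (C : ℝ), 0 < C ∧ ∀ (Ω : Set (V n))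
  (τ τi : MC n N) (κ : Fin n → MC n N) (h : Fin n → Fin n → MC n N) (q : Fin n → MC n N),
  BkU Ω τ τi κ h q → ∀ a b : ℝ, ClC M b (fun x => τ x - 1) → ClC M b (fun x => τi x - 1) →
  (∀ i, ClC M b (κ i)) → C * b ≤ 1 →
  (∀ i j α β, ∀ k : Ix n, wt k ^ (n + 2) * ‖ft (fun x => h i j x α β) (fr 0 k)‖ ≤ a) →
  (∀ i α β, ∀ k : Ix n, wt k ^ (n + 1) * ‖ft (fun x => q i x α β) (fr 0 k)‖ ≤ a) →
  ∀ ξ v : V n, nr v = 1 → ∑ j, v j * ξ j = 0 → 1 ≤ nr ξ → C * nr ξ * a ≤ 1 → ∀ α β : Fin N,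
  wr ξ ^ (n + 2) * ‖((nr ξ : ℝ) : ℂ) ^ 2 *
        (∑ i, ∑ j, (v i : ℂ) * v j * ft (fun x => h i j x α β) ξ)
      + ∑ i, ∑ j, (ξ i : ℂ) * ξ j * ft (fun x => h i j x α β) ξ‖
    ≤ C * nr ξ ^ 2 * (b * a) + C * nr ξ ^ 3 * a ^ 2 * wr ξ ^ (n + 2) ∧
  wr ξ ^ (n + 2) * (nr ξ * ‖∑ i, (v i : ℂ) * ft (fun x => q i x α β) ξ‖)
    ≤ C * nr ξ ^ 2 * (b * a) + C * nr ξ ^ 3 * a ^ 2 * wr ξ ^ (n + 2)

/-- (U_INT) interpolation with any exponent. -/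
def RowINTU : Prop := ∀ n m : ℕ, n + 1 ≤ m → ∃ C : ℝ, 0 < C ∧ ∀ f : V n → ℂ, ContDiff ℝ ∞ f →
  (∀ x ∉ core n, f x = 0) → ∀ a, (∀ k : Ix n, wt k ^ m * ‖ft f (fr 0 k)‖ ≤ a) →
  ∀ ζ : V n, wr ζ ^ m * ‖ft f ζ‖ ≤ C * a

/-- (U_ABS) absorption: the reduced data are equal. -/
def RowABSU : Prop := ∀ n N : ℕ, 2 ≤ n → 1 ≤ N → ∃ (m M : ℕ) (ε : ℝ), 0 < ε ∧ ∀ (Ω : Set (V n))
  (τ τi : MC n N) (κ : Fin n → MC n N) (h : Fin n → Fin n → MC n N) (q : Fin n → MC n N),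
  BkU Ω τ τi κ h q → ClC M ε (fun x => τ x - 1) → ClC M ε (fun x => τi x - 1) →
  (∀ i, ClC M ε (κ i)) →
  -- the structure `T = s ⊗ P`
  ∀ (σ : V n → ℝ) (s : MF n) (P₁ P : MC n N), ContDiff ℝ ∞ σ → SmM s → SmC P₁ → SmC P →
  (∀ x, (P₁ x)ᴴ = P₁ x) → (∀ x, (P x)ᴴ = P x) →
  (∀ x, τ x = (σ x : ℂ) • P₁ x) → (∀ i j x, dg τ i j x + h i j x = (s x i j : ℂ) • P x) →
  Cl M ε (fun x => σ x - 1) → (∀ i j, Cl M ε (fun x => s x i j - (1 : Matrix _ _ ℝ) i j)) →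
  ClC M ε (fun x => P₁ x - 1) → ClC M ε (fun x => P x - 1) →
  (∀ i x, (q i x)ᴴ = -q i x) →
  -- the gauge identity: `G a i = ∂_i Y_a - δ_ia` on `Ω`, `D a = R_{2,a} - R_{1,a}`
  ∀ (G : Fin n → Fin n → MC n N) (D : Fin n → MC n N), (∀ a i, SmC (G a i)) →
  (∀ a i, ∀ x ∉ core n, G a i x = 0) → (∀ a i, ClC M ε (G a i)) → (∀ a, SmC (D a)) →
  (∀ a, ∀ x ∉ Ω, D a x = 0) → (∀ a x, ((D a x).trace).re = 0) →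
  (∀ a x, ∑ i, pdm i (fun y => (∑ j, h i j y * ((if j = a then 1 else 0) + G a j y)) +
      τ y * pdm i (D a) y) x + ∑ i, q i x * ((if i = a then 1 else 0) + G a i x) +
      ∑ i, κ i x * pdm i (D a) x = 0) →
  (∀ i j α β, nm m (cf 0 (fun x => h i j x α β)) ≤ ε) →
  (∀ i α β, nm m (cf 0 (fun x => q i x α β)) ≤ ε) →
  (∀ i j x, h i j x = 0) ∧ ∀ i x, q i x = 0

/-- (U_FIN) equal reduced data: equal tensors, gauge equivalent connections. -/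
def RowFINU : Prop := ∀ {n N : ℕ}, 1 ≤ n → 1 ≤ N → ∀ (Ω : Set (V n)), IsOpen Ω → Ω ⊆ core n →
  ∀ (σ : V n → ℝ) (s : MF n), ContDiff ℝ ∞ σ → (∀ x, 0 < σ x) → SmM s → (∀ x, (s x).IsSymm) →
  (∀ x ∉ Ω, s x = sc σ x) → ∀ A₁ A : Cn n N, SmU A₁ → SmU A → (∀ i, ∀ x ∉ Ω, A i x = A₁ i x) →
  ∀ F₁ F : MC n N, SmC F₁ → SmC F → (∀ x, IsUnit (F₁ x).det) → (∀ x, IsUnit (F x).det) →
  (∀ x ∉ Ω, F x = F₁ x) → (∀ x ∈ Ω, LaC (sc σ) A₁ F₁ x = 0) → (∀ x ∈ Ω, LaC s A F x = 0) →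
  (∀ i j x, TF s F i j x = TF (sc σ) F₁ i j x) →
  (∀ i x, qF s A F i x = qF (sc σ) A₁ F₁ i x) →
  (∀ x, s x = sc σ x) ∧ ∃ U : MC n N, SmC U ∧ (∀ x, (U x)ᴴ * U x = 1) ∧ (∀ x ∉ Ω, U x = 1) ∧
    ∀ i x, A i x = (U x)ᴴ * A₁ i x * U x + (U x)ᴴ * pdm i U x

/-- (U_SM) smoothness and smallness of the reduced data. -/
def RowSMU : Prop := ∀ (n N k : ℕ) (ε : ℝ), 0 < ε → ∃ δ > 0, ∀ (s : MF n) (A : Cn n N)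
  (F : MC n N), SmM s → SmU A → SmC F →
  (∀ i j, Cl k δ (fun x => s x i j - (1 : Matrix (Fin n) (Fin n) ℝ) i j)) →
  (∀ i, ClC k δ (A i)) → ClC (k + 1) δ (fun x => F x - 1) →
  SmC (PF F) ∧ (∀ i j, SmC (TF s F i j)) ∧ (∀ i, SmC (qF s A F i)) ∧
  ClC k ε (fun x => PF F x - 1) ∧ (∀ i, ClC k ε (qF s A F i)) ∧
  ∀ i j, ClC k ε (fun x => TF s F i j x - if i = j then 1 else 0)

/-- (U_SMK) smallness after composition with `K = (id + w)⁻¹`. -/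
def RowSMK : Prop := ∀ (n N k : ℕ), ∃ C ε₀ : ℝ, 0 < C ∧ 0 < ε₀ ∧ ∀ (Ω : Set (V n))
  (w K : V n → V n), Dif Ω w K → ∀ δ, 0 ≤ δ → δ ≤ ε₀ → Cl (k + 2) δ w →
  (∀ A : Cn n N, SmU A → (∀ i, ClC k δ (A i)) → ∀ i, ClC k (C * δ) (pfo A K i)) ∧
  (∀ F : MC n N, SmC F → ClC k δ (fun x => F x - 1) → ClC k (C * δ) (fun y => F (K y) - 1)) ∧
  ∀ (X : MC n N) (a : Fin n), SmC X → ClC k δ (fun x => X x - (x a : ℂ) • 1) →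
    ClC k (C * δ) (fun y => X (K y) - (y a : ℂ) • 1)

/-- (U_CORE) rigidity when both pairs have the same real trace coordinates. -/
def CoreU (n N k : ℕ) (ε : ℝ) : Prop := ∀ (Ω : Set (V n)), IsOpen Ω →
  interior (closure Ω) = Ω → Ω ⊆ bls n → ∀ (σ : V n → ℝ) (s : MF n), ContDiff ℝ ∞ σ →
  (∀ x, 0 < σ x) → SmM s → (∀ x, (s x).IsSymm) → (∀ x ∉ Ω, s x = sc σ x) →
  Cl k ε (fun x => σ x - 1) →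
  (∀ i j, Cl k ε (fun x => s x i j - (1 : Matrix (Fin n) (Fin n) ℝ) i j)) →
  ∀ A₁ A : Cn n N, SmU A₁ → SmU A → (∀ i, ∀ x ∉ Ω, A i x = A₁ i x) →
  (∀ i, ClC k ε (A₁ i)) → (∀ i, ClC k ε (A i)) →
  ∀ (F₁ F : MC n N) (X₁ X : Fin n → MC n N), SmC F₁ → SmC F → (∀ a, SmC (X₁ a)) →
  (∀ a, SmC (X a)) → (∀ x ∉ Ω, F x = F₁ x) → (∀ a, ∀ x ∉ Ω, X a x = X₁ a x) →
  ClC k ε (fun x => F₁ x - 1) → ClC k ε (fun x => F x - 1) →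
  (∀ a, ClC k ε (fun x => X₁ a x - (x a : ℂ) • 1)) →
  (∀ a, ClC k ε (fun x => X a x - (x a : ℂ) • 1)) →
  (∀ x ∈ Ω, LaC (sc σ) A₁ F₁ x = 0) → (∀ x ∈ Ω, LaC s A F x = 0) →
  (∀ a, ∀ x ∈ Ω, LaC (sc σ) A₁ (X₁ a) x = 0) → (∀ a, ∀ x ∈ Ω, LaC s A (X a) x = 0) →
  (∀ x ∈ Ω, ∀ a, (((F x)⁻¹ * X a x).trace).re = (((F₁ x)⁻¹ * X₁ a x).trace).re) →
  OrU Ω (sc σ) A₁ s A →
  (∀ x, s x = sc σ x) ∧ ∃ U : MC n N, SmC U ∧ (∀ x, (U x)ᴴ * U x = 1) ∧ (∀ x ∉ Ω, U x = 1) ∧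
    ∀ i x, A i x = (U x)ᴴ * A₁ i x * U x + (U x)ᴴ * pdm i U x

/-- Joint rigidity in the ball (tensor form). -/
def RigU (n N k : ℕ) (ε : ℝ) : Prop := ∀ (Ω : Set (V n)), IsOpen Ω →
  interior (closure Ω) = Ω → Ω ⊆ bls n → ∀ (σ : V n → ℝ) (s : MF n), ContDiff ℝ ∞ σ →
  (∀ x, 0 < σ x) → (∀ x ∉ bal n, σ x = 1) → SmM s → (∀ x, (s x).IsSymm) →
  (∀ x ∉ Ω, s x = sc σ x) → Cl k ε (fun x => σ x - 1) →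
  (∀ i j, Cl k ε (fun x => s x i j - (1 : Matrix (Fin n) (Fin n) ℝ) i j)) →
  ∀ A₁ A₂ : Cn n N, SmU A₁ → SmU A₂ → (∀ i, ∀ x ∉ bal n, A₁ i x = 0) →
  (∀ i, ∀ x ∉ Ω, A₂ i x = A₁ i x) → (∀ i, ClC k ε (A₁ i)) → (∀ i, ClC k ε (A₂ i)) →
  OrU Ω (sc σ) A₁ s A₂ → ∃ w K, Dif Ω w K ∧ (∀ x, psh s w K x = sc σ x) ∧
    ∃ U : MC n N, SmC U ∧ (∀ x, (U x)ᴴ * U x = 1) ∧ (∀ x ∉ Ω, U x = 1) ∧
      ∀ i x, A₂ i x = (U x)ᴴ * pb w A₁ i x * U x + (U x)ᴴ * pdm i U x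

/-- Joint local uniqueness: the pairs `(c e, A₁)` near `(e, 0)` among all pairs near `(e, 0)`. -/
def LocU (n N k : ℕ) (R ε : ℝ) : Prop := ∀ (Ω : Set (V n)), IsOpen Ω →
  interior (closure Ω) = Ω → Ω ⊆ {x | ∀ j, |x j| ≤ R} → ∀ (c : V n → ℝ) (g : MF n),
  ContDiff ℝ ∞ c → (∀ x, 0 < c x) → SmM g → (∀ x, (g x).PosDef) → (∀ x ∉ Ω, g x = sc c x) →
  Cl k ε (fun x => c x - 1) →
  (∀ i j, Cl k ε (fun x => g x i j - (1 : Matrix (Fin n) (Fin n) ℝ) i j)) →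
  ∀ A₁ A₂ : Cn n N, SmU A₁ → SmU A₂ → (∀ i, ∀ x ∉ Ω, A₂ i x = A₁ i x) →
  (∀ i, ClC k ε (A₁ i)) → (∀ i, ClC k ε (A₂ i)) → SDU Ω (sc c) A₁ g A₂ →
  ∃ w K U, Dif Ω w K ∧ (∀ x, g x = c (x + w x) • ((jm w x)ᵀ * jm w x)) ∧
    Gau Ω U (pb w A₁) A₂

/-- (U_TOP) the final theorem: cut-off of `c` and `A₁`, dilation, `g` from `√(det g) g⁻¹`. -/
def RowTOPU : Prop := ∀ n N : ℕ, 3 ≤ n → 1 ≤ N → (∃ (k : ℕ) (ε : ℝ), 0 < ε ∧ RigU n N k ε) →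
  ∃ k : ℕ, ∀ R : ℝ, 0 < R → ∃ ε > 0, LocU n N k R ε

end Vale.Agent.P088.LR.U
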