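import Vale.Agent.P088.H599.CFAbs
import Vale.Agent.P088.H599.J.Defs
import Vale.Agent.P088.H776.A3
import Vale.Agent.P088.H158.PushA

/-!
# P088, row U_ABS, part 1: products, conjugation and frequency zero
-/

open MeasureTheory Set
open scoped ContDiff Matrix

noncomputable section

namespace Vale.Agent.P088.LR.U.H599

open Vale.Agent.P088.LR.CF Vale.Agent.P088.LR.CF.H599 Vale.Agent.P088.LR.U

variable {n N : ℕ}

/-- The coefficients decay like `B wt^{-P}`. -/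
def Bd (P : ℕ) (B : ℝ) (f : V n → ℂ) : Prop := ∀ k : Ix n, wt k ^ P * ‖cf 0 f k‖ ≤ B

/-- Smooth, zero off the ball. -/
structure Sb (f : V n → ℂ) : Prop where
  s : ContDiff ℝ ∞ f
  z : ∀ x ∉ bal n, f x = 0

lemma Sb.supp {f : V n → ℂ} (h : Sb f) : tsupport f ⊆ core n := by
  refine closure_minimal ?_ H129.isCompact_core.isClosed
  intro x hx
  by_contra hc
  exact hx (h.z x fun hb => hc (bal_sub hb))

lemma Sb.incube {f : V n → ℂ} (h : Sb f) : tsupport f ⊆ cube n :=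
  h.supp.trans H129.core_subset_cube

lemma Sb.cs {f : V n → ℂ} (h : Sb f) : HasCompactSupport f :=
  HasCompactSupport.of_support_subset_isCompact H129.isCompact_core
    ((subset_tsupport _).trans h.supp)

lemma Sb.int {f : V n → ℂ} (h : Sb f) : Integrable f :=
  h.s.continuous.integrable_of_hasCompactSupport h.cs

lemma Sb.rd (hA3 : RowA3) {f : V n → ℂ} (h : Sb f) :
    RD (cf 0 f) ∧ ∀ x ∈ cube n, f x = Es 0 (cf 0 f) x := by
  obtain ⟨C0, -, hC0'⟩ := hA3 n 0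
  obtain ⟨h2, h3, -⟩ := hC0' f h.s h.incube 0 (by simp)
  exact ⟨h2, h3⟩

lemma Sb.mul {f g : V n → ℂ} (h : Sb f) (hg : ContDiff ℝ ∞ g) : Sb fun x => f x * g x :=
  ⟨h.s.mul hg, fun x hx => by rw [h.z x hx, zero_mul]⟩

lemma Sb.mul' {f g : V n → ℂ} (h : Sb f) (hg : ContDiff ℝ ∞ g) : Sb fun x => g x * f x :=
  ⟨hg.mul h.s, fun x hx => by rw [h.z x hx, mul_zero]⟩

lemma Sb.add {f g : V n → ℂ} (h : Sb f) (hg : Sb g) : Sb fun x => f x + g x :=
  ⟨h.s.add hg.s, fun x hx => by rw [h.z x hx, hg.z x hx, add_zero]⟩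

lemma Sb.sum {ι : Type*} {u : Finset ι} {f : ι → V n → ℂ} (h : ∀ i, Sb (f i)) :
    Sb fun x => ∑ i ∈ u, f i x :=
  ⟨ContDiff.sum fun i _ => (h i).s, fun x hx => Finset.sum_eq_zero fun i _ => (h i).z x hx⟩

lemma Sb.star {f : V n → ℂ} (h : Sb f) : Sb fun x => star (f x) :=
  ⟨H158.contDiff_star h.s, fun x hx => by rw [h.z x hx, star_zero]⟩

lemma cf_add {f g : V n → ℂ} (hf : Sb f) (hg : Sb g) (k : Ix n) :
    cf 0 (fun x => f x + g x) k = cf 0 f k + cf 0 g k := by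
  unfold cf ft
  rw [← integral_add (int_ex hf.int _) (int_ex hg.int _)]
  exact integral_congr_ae (Filter.Eventually.of_forall fun x => by simp only; ring)

lemma cf_sum {ι : Type*} {u : Finset ι} {f : ι → V n → ℂ} (hf : ∀ i, Sb (f i)) (k : Ix n) :
    cf 0 (fun x => ∑ i ∈ u, f i x) k = ∑ i ∈ u, cf 0 (f i) k := by
  unfold cf ft
  rw [← integral_finsetSum _ fun i _ => int_ex (hf i).int _]
  exact integral_congr_ae (Filter.Eventually.of_forall fun x => by
    simp only; rw [Finset.sum_mul])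

lemma cf_smul (c : ℂ) (f : V n → ℂ) (k : Ix n) : cf 0 (fun x => c * f x) k = c * cf 0 f k := by
  unfold cf ft
  rw [← integral_const_mul]
  exact integral_congr_ae (Filter.Eventually.of_forall fun x => by simp only; ring)

lemma star_ex (ξ x : V n) : star (ex ξ x) = ex (-ξ) x := by
  unfold ex
  rw [Complex.star_def, ← Complex.exp_conj]
  congr 1
  simp only [map_mul, Complex.conj_ofReal, Complex.conj_I, map_ofNat]
  have h : (∑ j, (-ξ) j * x j : ℝ) = -∑ j, ξ j * x j := by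
    rw [← Finset.sum_neg_distrib]
    exact Finset.sum_congr rfl fun j _ => by simp
  rw [h]
  push_cast
  ring

lemma cf_star (f : V n → ℂ) (k : Ix n) : cf 0 (fun x => star (f x)) k = star (cf 0 f (-k)) := by
  unfold cf ft
  have h1 : star (∫ x, f x * ex (-fr 0 (-k)) x) = ∫ x, star (f x * ex (-fr 0 (-k)) x) := by
    rw [Complex.star_def]
    exact (integral_conj (f := fun x => f x * ex (-fr 0 (-k)) x)).symm
  rw [h1]
  refine integral_congr_ae (Filter.Eventually.of_forall fun x => ?_)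
  have h2 : -(fr (0 : V n) (-k)) = fr 0 k := by
    funext j
    simp [fr]
  simp only
  rw [star_mul', star_ex, h2]

lemma wt_neg (k : Ix n) : wt (-k) = wt k := by
  unfold wt
  simp

lemma Bd.star {P : ℕ} {B : ℝ} {f : V n → ℂ} (h : Bd P B f) : Bd P B fun x => star (f x) := by
  intro k
  rw [cf_star, norm_star, ← wt_neg k]
  exact h (-k)

lemma Bd.nonneg {P : ℕ} {B : ℝ} {f : V n → ℂ} (h : Bd P B f) : 0 ≤ B :=
  (mul_nonneg (pow_nonneg (H501.wt_pos 0).le _) (norm_nonneg _)).trans (h 0)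

lemma Bd.add {P : ℕ} {A B : ℝ} {f g : V n → ℂ} (hf : Bd P A f) (hg : Bd P B g) (sf : Sb f)
    (sg : Sb g) : Bd P (A + B) fun x => f x + g x := by
  intro k
  rw [cf_add sf sg]
  have hw : 0 ≤ wt k ^ P := pow_nonneg (H501.wt_pos k).le _
  calc wt k ^ P * ‖cf 0 f k + cf 0 g k‖ ≤ wt k ^ P * (‖cf 0 f k‖ + ‖cf 0 g k‖) :=
        mul_le_mul_of_nonneg_left (norm_add_le _ _) hw
    _ = wt k ^ P * ‖cf 0 f k‖ + wt k ^ P * ‖cf 0 g k‖ := by ring
    _ ≤ A + B := add_le_add (hf k) (hg k)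

lemma Bd.sum {ι : Type*} [Fintype ι] {P : ℕ} {B : ℝ} {f : ι → V n → ℂ} (hf : ∀ i, Bd P B (f i))
    (sf : ∀ i, Sb (f i)) : Bd P (Fintype.card ι * B) fun x => ∑ i, f i x := by
  intro k
  rw [cf_sum sf]
  have hw : 0 ≤ wt k ^ P := pow_nonneg (H501.wt_pos k).le _
  calc wt k ^ P * ‖∑ i, cf 0 (f i) k‖ ≤ wt k ^ P * ∑ i, ‖cf 0 (f i) k‖ :=
        mul_le_mul_of_nonneg_left (norm_sum_le _ _) hw
    _ = ∑ i, wt k ^ P * ‖cf 0 (f i) k‖ := by rw [Finset.mul_sum]
    _ ≤ ∑ _i : ι, B := Finset.sum_le_sum fun i _ => hf i k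
    _ = Fintype.card ι * B := by simp

lemma Bd.mono {P P' : ℕ} {B : ℝ} {f : V n → ℂ} (h : Bd P B f) (hP : P' ≤ P) : Bd P' B f := by
  intro k
  refine le_trans ?_ (h k)
  exact mul_le_mul_of_nonneg_right (pow_le_pow_right₀ (H501.one_le_wt k) hP) (norm_nonneg _)

lemma Bd.le {P : ℕ} {B B' : ℝ} {f : V n → ℂ} (h : Bd P B f) (hB : B ≤ B') : Bd P B' f :=
  fun k => (h k).trans hB

/-! ## The cut-off -/

/-- The cut-off: `1` on `bal`, supported in the cube. -/
def chi (x : V n) : ℝ := Real.smoothTransition ((1 / 8 - ∑ j, (x j - 1 / 2) ^ 2) * 16)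

lemma chi_smooth : ContDiff ℝ ∞ (chi : V n → ℝ) := by
  unfold chi
  refine Real.smoothTransition.contDiff.comp ?_
  refine ContDiff.mul (contDiff_const.sub ?_) contDiff_const
  exact ContDiff.sum fun j _ => ((contDiff_apply ℝ ℝ j).sub contDiff_const).pow 2

lemma chi_one {x : V n} (h : x ∈ bal n) : chi x = 1 := by
  have h1 : ∑ j, (x j - 1 / 2) ^ 2 ≤ 1 / 16 := h
  exact Real.smoothTransition.one_of_one_le (by nlinarith)

/-- A slightly larger compact cube. -/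
def core' (n : ℕ) : Set (V n) := Set.Icc (fun _ => 1 / 10) (fun _ => 9 / 10)

lemma core'_sub : core' n ⊆ cube n := by
  intro x hx j
  have h1 : (1 : ℝ) / 10 ≤ x j := hx.1 j
  have h2 : x j ≤ (9 : ℝ) / 10 := hx.2 j
  constructor <;> linarith

lemma chi_zero {x : V n} (h : x ∉ core' n) : chi x = 0 := by
  refine Real.smoothTransition.zero_of_nonpos ?_
  by_contra hc
  push Not at hc
  refine h ?_
  have h1 : ∑ j, (x j - 1 / 2) ^ 2 < 1 / 8 := by nlinarith
  have h2 : ∀ j, |x j - 1 / 2| ≤ 2 / 5 := by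
    intro j
    have h3 : (x j - 1 / 2) ^ 2 ≤ ∑ j, (x j - 1 / 2) ^ 2 :=
      Finset.single_le_sum (f := fun j => (x j - 1 / 2) ^ 2) (fun _ _ => sq_nonneg _)
        (Finset.mem_univ j)
    refine abs_le_of_sq_le_sq ?_ (by norm_num)
    nlinarith
  constructor
  · intro j
    have := (abs_le.1 (h2 j)).1
    show (1 : ℝ) / 10 ≤ x j
    linarith
  · intro j
    have := (abs_le.1 (h2 j)).2
    show x j ≤ (9 : ℝ) / 10
    linarith

lemma chi_supp : tsupport (chi : V n → ℝ) ⊆ core' n := by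
  refine closure_minimal ?_ isClosed_Icc
  intro x hx
  by_contra hc
  exact hx (chi_zero hc)

lemma chi_cl (n k : ℕ) : ∃ B : ℝ, 0 < B ∧ Cl k B (fun x : V n => ((chi x : ℝ) : ℂ)) := by
  have hs : ContDiff ℝ ∞ (fun x : V n => ((chi x : ℝ) : ℂ)) :=
    Complex.ofRealCLM.contDiff.comp chi_smooth
  have hc : HasCompactSupport (fun x : V n => ((chi x : ℝ) : ℂ)) := by
    refine HasCompactSupport.of_support_subset_isCompact (K := core' n) isCompact_Icc ?_
    intro x hx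
    by_contra h
    refine hx ?_
    simp only [chi_zero h, Complex.ofReal_zero]
  have h : ∀ l : ℕ, ∃ C, ∀ x : V n,
      ‖iteratedFDeriv ℝ l (fun x : V n => ((chi x : ℝ) : ℂ)) x‖ ≤ C := fun l =>
    (hs.continuous_iteratedFDeriv (by exact_mod_cast le_top)).bounded_above_of_compact_support
      (hc.iteratedFDeriv l)
  choose C hC using h
  refine ⟨1 + ∑ l ∈ Finset.range (k + 1), |C l|, by positivity, fun l hl x => ?_⟩
  calc ‖iteratedFDeriv ℝ l (fun x : V n => ((chi x : ℝ) : ℂ)) x‖ ≤ C l := hC l x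
    _ ≤ |C l| := le_abs_self _
    _ ≤ ∑ l ∈ Finset.range (k + 1), |C l| :=
      Finset.single_le_sum (f := fun l => |C l|) (fun i _ => abs_nonneg _)
        (Finset.mem_range.mpr (by omega))
    _ ≤ _ := by linarith

lemma cl_mulC {k : ℕ} {a b : ℝ} {f g : V n → ℂ} (hf : ContDiff ℝ ∞ f) (hg : ContDiff ℝ ∞ g)
    (h1 : Cl k a f) (h2 : Cl k b g) : Cl k (2 ^ k * (a * b)) (fun x => f x * g x) := by
  have ha : 0 ≤ a := (norm_nonneg _).trans (h1 0 (Nat.zero_le _) 0)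
  have hb : 0 ≤ b := (norm_nonneg _).trans (h2 0 (Nat.zero_le _) 0)
  intro l hl x
  refine (norm_iteratedFDeriv_mul_le (hf.of_le (by exact_mod_cast le_top) : ContDiff ℝ l f)
    (hg.of_le (by exact_mod_cast le_top)) x le_rfl).trans ?_
  calc ∑ i ∈ Finset.range (l + 1), (l.choose i : ℝ) * ‖iteratedFDeriv ℝ i f x‖
        * ‖iteratedFDeriv ℝ (l - i) g x‖
      ≤ ∑ i ∈ Finset.range (l + 1), (l.choose i : ℝ) * (a * b) := by
        refine Finset.sum_le_sum fun i hi => ?_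
        rw [Finset.mem_range] at hi
        have h3 := h1 i (by omega) x
        have h4 := h2 (l - i) (by omega) x
        rw [mul_assoc]
        gcongr
    _ = 2 ^ l * (a * b) := by
        rw [← Finset.sum_mul]
        congr 1
        exact_mod_cast Nat.sum_range_choose l
    _ ≤ 2 ^ k * (a * b) := by
        have : (2 : ℝ) ^ l ≤ 2 ^ k := pow_le_pow_right₀ (by norm_num) hl
        gcongr

/-- Multiplication by a small smooth function. -/
lemma mul_bd (hA3 : RowA3) (n P : ℕ) : ∃ C : ℝ, 0 < C ∧ ∀ (f g : V n → ℂ) (A ε : ℝ), Sb f →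
    Bd P A f → ContDiff ℝ ∞ g → Cl (P + n + 1) ε g → Bd P (C * ε * A) fun x => f x * g x := by
  obtain ⟨C, hC, h3⟩ := hA3 n P
  obtain ⟨B, hB, hchi⟩ := chi_cl n (P + n + 1)
  refine ⟨C * (2 ^ (P + n + 1) * B), by positivity, ?_⟩
  intro f g A ε hf hA hg hε
  have hcs : ContDiff ℝ ∞ (fun x : V n => ((chi x : ℝ) : ℂ)) :=
    Complex.ofRealCLM.contDiff.comp chi_smooth
  have hcg : ContDiff ℝ ∞ (fun x : V n => ((chi x : ℝ) : ℂ) * g x) := hcs.mul hg
  have hsup : tsupport (fun x : V n => ((chi x : ℝ) : ℂ) * g x) ⊆ cube n := by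
    refine Subset.trans (closure_minimal ?_ isClosed_Icc) core'_sub
    intro x hx
    by_contra hc
    refine hx ?_
    simp only [chi_zero hc, Complex.ofReal_zero, zero_mul]
  obtain ⟨r1, r2, r3⟩ := h3 _ hcg hsup 0 (by simp)
  have hcl := cl_mulC hcs hg hchi hε
  have hnm := r3 _ hcl
  have hfun : (fun x => f x * g x)
      = fun x => f x * Es 0 (cf 0 (fun x : V n => ((chi x : ℝ) : ℂ) * g x)) x := by
    funext x
    by_cases hx : x ∈ bal n
    · rw [← r2 x (H129.core_subset_cube (bal_sub hx)), chi_one hx, Complex.ofReal_one, one_mul]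
    · rw [hf.z x hx, zero_mul, zero_mul]
  intro k
  have h := norm_ft_mul_Es hf.s.continuous hf.cs r1 hA k
  rw [hfun]
  refine h.trans ?_
  have hA0 := hA.nonneg
  calc A * nm P (cf 0 fun x : V n => ((chi x : ℝ) : ℂ) * g x)
      ≤ A * (C * (2 ^ (P + n + 1) * (B * ε))) := mul_le_mul_of_nonneg_left hnm hA0
    _ = C * (2 ^ (P + n + 1) * B) * ε * A := by ring

/-- Frequency zero is controlled by the others. -/
lemma zero_bd (hA3 : RowA3) (hn : 1 ≤ n) {P : ℕ} (hP : n + 1 ≤ P) {f : V n → ℂ} (hf : Sb f)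
    {B : ℝ} (hB : ∀ k : Ix n, k ≠ 0 → wt k ^ P * ‖cf 0 f k‖ ≤ B) (hB0 : 0 ≤ B) :
    ‖cf 0 f 0‖ ≤ (∑' k : Ix n, (wt k ^ (n + 1))⁻¹) * B := by
  obtain ⟨r1, r2⟩ := hf.rd hA3
  set x₀ : V n := fun _ => 1 / 8 with hx0
  have hcube : x₀ ∈ cube n := fun j => ⟨by simp only [hx0]; norm_num, by simp only [hx0]; norm_num⟩
  have hbal : x₀ ∉ bal n := by
    intro h
    have h1 : ∑ j, (x₀ j - 1 / 2) ^ 2 ≤ 1 / 16 := h
    have h2 : ∑ j : Fin n, (x₀ j - 1 / 2) ^ 2 = (n : ℝ) * (9 / 64) := by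
      have h4 : ∀ j : Fin n, (x₀ j - 1 / 2) ^ 2 = (9 / 64 : ℝ) := fun j => by
        simp only [hx0]
        norm_num
      rw [Finset.sum_congr rfl fun j _ => h4 j, Finset.sum_const, Finset.card_univ,
        Fintype.card_fin, nsmul_eq_mul]
    have h3 : (1 : ℝ) ≤ n := by exact_mod_cast hn
    rw [h2] at h1
    linarith
  have h0 : Es 0 (cf 0 f) x₀ = 0 := by rw [← r2 x₀ hcube, hf.z x₀ hbal]
  have hsum : Summable fun k => cf 0 f k * ex (fr 0 k) x₀ := H501.rd_summable_term r1 0 x₀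
  have h1 : cf 0 f 0 * ex (fr 0 0) x₀ + ∑' k, (if k = 0 then 0 else cf 0 f k * ex (fr 0 k) x₀)
      = 0 := by
    have := hsum.tsum_eq_add_tsum_ite 0
    rw [← this]
    exact h0
  have hS := H776.sum_wt n
  have hle : ∀ k : Ix n, ‖if k = 0 then (0 : ℂ) else cf 0 f k * ex (fr 0 k) x₀‖
      ≤ (wt k ^ (n + 1))⁻¹ * B := by
    intro k
    have hw : 0 < wt k ^ (n + 1) := pow_pos (H501.wt_pos k) _
    split_ifs with hk
    · rw [norm_zero]
      positivity
    · rw [norm_mul, H501.norm_ex, mul_one, ← div_eq_inv_mul, le_div_iff₀ hw, mul_comm]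
      refine le_trans ?_ (hB k hk)
      exact mul_le_mul_of_nonneg_right (pow_le_pow_right₀ (H501.one_le_wt k) hP) (norm_nonneg _)
  have h2 : ‖cf 0 f 0‖ = ‖∑' k, (if k = 0 then 0 else cf 0 f k * ex (fr 0 k) x₀)‖ := by
    have h3 : cf 0 f 0 * ex (fr 0 0) x₀
        = -∑' k, (if k = 0 then 0 else cf 0 f k * ex (fr 0 k) x₀) := by
      rw [eq_neg_iff_add_eq_zero]
      exact h1
    have h4 : ‖cf 0 f 0‖ = ‖cf 0 f 0 * ex (fr 0 0) x₀‖ := by
      rw [norm_mul, H501.norm_ex, mul_one]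
    rw [h4, h3, norm_neg]
  rw [h2, ← tsum_mul_right]
  exact tsum_of_norm_bounded (hS.mul_right B).hasSum hle

end Vale.Agent.P088.LR.U.H599
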