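import Vale.Agent.P088.H599.J.Abs1

/-!
# P088, row U_ABS, part 2: the gauge identity
-/

open MeasureTheory Set
open scoped ContDiff Matrix

noncomputable section

namespace Vale.Agent.P088.LR.U.H599

open Vale.Agent.P088.LR.CF Vale.Agent.P088.LR.CF.H599 Vale.Agent.P088.LR.U H158

variable {n N : ℕ}

lemma isClosed_bal : IsClosed (bal n) := by
  have h : Continuous fun x : V n => ∑ j, (x j - 1 / 2) ^ 2 :=
    continuous_finsetSum _ fun j _ => ((continuous_apply j).sub continuous_const).pow 2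
  exact isClosed_le h continuous_const

lemma Sb.pd {f : V n → ℂ} (h : Sb f) (i : Fin n) : Sb (pd i f) := by
  refine ⟨H776.pd_contDiff h.s i, fun x hx => ?_⟩
  have h1 : f =ᶠ[nhds x] fun _ => 0 := by
    filter_upwards [isClosed_bal.isOpen_compl.mem_nhds hx] with y hy
    exact h.z y hy
  unfold LR.pd
  rw [h1.fderiv_eq]
  simp

lemma cf_pd {f : V n → ℂ} (h : Sb f) (i : Fin n) (k : Ix n) :
    cf 0 (pd i f) k = 2 * Real.pi * Complex.I * (fr 0 k i : ℂ) * cf 0 f k :=
  H776.ft_pd h.s h.incube (fr 0 k) i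

lemma mul_bd' (hA3 : RowA3) (n P : ℕ) : ∃ C : ℝ, 0 < C ∧ ∀ (f g : V n → ℂ) (A ε : ℝ), Sb f →
    Bd P A f → ContDiff ℝ ∞ g → Cl (P + n + 1) ε g → Bd P (C * ε * A) fun x => g x * f x := by
  obtain ⟨C, hC, h⟩ := mul_bd hA3 n P
  refine ⟨C, hC, fun f g A ε h1 h2 h3 h4 => ?_⟩
  have h5 : (fun x => g x * f x) = fun x => f x * g x := funext fun x => mul_comm _ _
  rw [h5]
  exact h f g A ε h1 h2 h3 h4

/-- The data of the gauge identity. -/
structure GDat (h : Fin n → Fin n → MC n N) (q : Fin n → MC n N) (G : Fin n → Fin n → MC n N)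
    (D : Fin n → MC n N) (τ : MC n N) (κ : Fin n → MC n N) : Prop where
  sh : ∀ i j α β, Sb fun x => h i j x α β
  sq : ∀ i α β, Sb fun x => q i x α β
  sD : ∀ a α β, Sb fun x => D a x α β
  sG : ∀ a j, SmC (G a j)
  sτ : SmC τ
  sκ : ∀ i, SmC (κ i)
  eq : ∀ a x, ∑ i, pdm i (fun y => (∑ j, h i j y * ((if j = a then 1 else 0) + G a j y)) +
      τ y * pdm i (D a) y) x + ∑ i, q i x * ((if i = a then 1 else 0) + G a i x) +
      ∑ i, κ i x * pdm i (D a) x = 0

/-- The error terms. -/
def eM (h : Fin n → Fin n → MC n N) (G : Fin n → Fin n → MC n N) (D : Fin n → MC n N)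
    (τ : MC n N) (i a : Fin n) (α β : Fin N) : V n → ℂ := fun y =>
  (∑ j, ∑ γ, h i j y α γ * G a j y γ β) +
    ∑ γ, (τ y - 1) α γ * pd i (fun z => D a z γ β) y

/-- The error terms. -/
def psM (q : Fin n → MC n N) (G : Fin n → Fin n → MC n N) (D : Fin n → MC n N)
    (κ : Fin n → MC n N) (a : Fin n) (α β : Fin N) : V n → ℂ := fun y =>
  (∑ i, ∑ γ, q i y α γ * G a i y γ β) + ∑ i, ∑ γ, κ i y α γ * pd i (fun z => D a z γ β) y

variable {h : Fin n → Fin n → MC n N} {q : Fin n → MC n N} {G : Fin n → Fin n → MC n N}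
  {D : Fin n → MC n N} {τ : MC n N} {κ : Fin n → MC n N}

lemma GDat.sm1 (H : GDat h q G D τ κ) (α γ : Fin N) : ContDiff ℝ ∞ fun y => (τ y - 1) α γ := by
  simp only [Matrix.sub_apply]
  exact (H.sτ α γ).sub contDiff_const

lemma GDat.se (H : GDat h q G D τ κ) (i a : Fin n) (α β : Fin N) : Sb (eM h G D τ i a α β) := by
  unfold eM
  refine Sb.add (Sb.sum fun j => Sb.sum fun γ => (H.sh i j α γ).mul (H.sG a j γ β))
    (Sb.sum fun γ => ((H.sD a γ β).pd i).mul' (H.sm1 α γ))

lemma GDat.sp (H : GDat h q G D τ κ) (a : Fin n) (α β : Fin N) : Sb (psM q G D κ a α β) := by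
  unfold psM
  exact Sb.add (Sb.sum fun i => Sb.sum fun γ => (H.sq i α γ).mul (H.sG a i γ β))
    (Sb.sum fun i => Sb.sum fun γ => ((H.sD a γ β).pd i).mul' (H.sκ i α γ))

/-- The gauge identity in entries. -/
lemma GDat.ent (H : GDat h q G D τ κ) (a : Fin n) (α β : Fin N) (x : V n) :
    (∑ i, pd i (fun y => (h i a y α β + eM h G D τ i a α β y)
      + pd i (fun z => D a z α β) y) x + q a x α β) + psM q G D κ a α β x = 0 := by
  have h0 := congrFun (congrFun (H.eq a x) α) β
  have e1 : ∀ i, (fun y => ((∑ j, h i j y * ((if j = a then 1 else 0) + G a j y)) +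
      τ y * pdm i (D a) y) α β) = fun y => (h i a y α β + eM h G D τ i a α β y)
      + pd i (fun z => D a z α β) y := by
    intro i
    funext y
    have h1 : (∑ j, h i j y * ((if j = a then 1 else 0) + G a j y)) + τ y * pdm i (D a) y
        = (h i a y + ((∑ j, h i j y * G a j y) + (τ y - 1) * pdm i (D a) y))
          + pdm i (D a) y := by
      simp only [mul_add, Finset.sum_add_distrib, mul_ite, mul_one, mul_zero,
        Finset.sum_ite_eq', Finset.mem_univ, if_true, sub_mul, one_mul]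
      abel
    rw [h1]
    simp only [Matrix.add_apply, Matrix.sum_apply, Matrix.mul_apply, eM, pdm, Matrix.of_apply]
  have e2 : (∑ i, q i x * ((if i = a then 1 else 0) + G a i x)) α β
      = q a x α β + ∑ i, ∑ γ, q i x α γ * G a i x γ β := by
    have h1 : (∑ i, q i x * ((if i = a then 1 else 0) + G a i x))
        = q a x + ∑ i, q i x * G a i x := by
      simp only [mul_add, Finset.sum_add_distrib, mul_ite, mul_one, mul_zero,
        Finset.sum_ite_eq', Finset.mem_univ, if_true]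
    rw [h1]
    simp only [Matrix.add_apply, Matrix.sum_apply, Matrix.mul_apply]
  have e3 : (∑ i, κ i x * pdm i (D a) x) α β
      = ∑ i, ∑ γ, κ i x α γ * pd i (fun z => D a z γ β) x := by
    simp only [Matrix.sum_apply, Matrix.mul_apply, pdm, Matrix.of_apply]
  rw [Matrix.add_apply, Matrix.add_apply, e2, e3, Matrix.sum_apply, Matrix.zero_apply] at h0
  have e4 : ∀ i, pdm i (fun y => (∑ j, h i j y * ((if j = a then 1 else 0) + G a j y)) +
      τ y * pdm i (D a) y) x α β = pd i (fun y => (h i a y α β + eM h G D τ i a α β y)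
      + pd i (fun z => D a z α β) y) x := by
    intro i
    rw [← e1 i]
    rfl
  simp only [e4] at h0
  rw [← h0]
  unfold psM
  ring

/-- The gauge identity for the coefficients. -/
lemma GDat.idf (H : GDat h q G D τ κ) (a : Fin n) (α β : Fin N) (k : Ix n) :
    (∑ i, 2 * Real.pi * Complex.I * (fr 0 k i : ℂ) * ((cf 0 (fun x => h i a x α β) k
      + cf 0 (eM h G D τ i a α β) k)
      + 2 * Real.pi * Complex.I * (fr 0 k i : ℂ) * cf 0 (fun z => D a z α β) k)
      + cf 0 (fun x => q a x α β) k) + cf 0 (psM q G D κ a α β) k = 0 := by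
  have s1 : ∀ i, Sb fun y => (h i a y α β + eM h G D τ i a α β y)
      + pd i (fun z => D a z α β) y := fun i =>
    ((H.sh i a α β).add (H.se i a α β)).add ((H.sD a α β).pd i)
  have h1 : cf 0 (fun x => (∑ i, pd i (fun y => (h i a y α β + eM h G D τ i a α β y)
      + pd i (fun z => D a z α β) y) x + q a x α β) + psM q G D κ a α β x) k = 0 := by
    have h2 : (fun x => (∑ i, pd i (fun y => (h i a y α β + eM h G D τ i a α β y)
      + pd i (fun z => D a z α β) y) x + q a x α β) + psM q G D κ a α β x) = fun _ => (0 : ℂ) :=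
      funext fun x => H.ent a α β x
    rw [h2]
    unfold cf ft
    simp
  rw [cf_add ((Sb.sum fun i => (s1 i).pd i).add (H.sq a α β)) (H.sp a α β),
    cf_add (Sb.sum fun i => (s1 i).pd i) (H.sq a α β), cf_sum fun i => (s1 i).pd i] at h1
  rw [← h1]
  congr 2
  refine Finset.sum_congr rfl fun i _ => ?_
  rw [cf_pd (s1 i), cf_add ((H.sh i a α β).add (H.se i a α β)) ((H.sD a α β).pd i),
    cf_add (H.sh i a α β) (H.se i a α β), cf_pd (H.sD a α β)]

lemma wt_le_nr {k : Ix n} (hk : k ≠ 0) : wt k ≤ (n + 1) * nr (fr 0 k) := by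
  have h1 := one_le_nr_fr hk
  have h2 := sum_abs_le (fr (0 : V n) k)
  have h3 : wt k = 1 + ∑ j, |fr (0 : V n) k j| := by
    rw [← wr_fr]
    rfl
  rw [h3]
  linarith

end Vale.Agent.P088.LR.U.H599
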