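import Vale.Agent.P088.H599.J.Abs2

/-!
# P088, row U_ABS, part 3: the bound of the divergence of the trace
-/

open MeasureTheory Set
open scoped ContDiff Matrix

noncomputable section

namespace Vale.Agent.P088.LR.U.H599

open Vale.Agent.P088.LR.CF Vale.Agent.P088.LR.CF.H599 Vale.Agent.P088.LR.U H158

variable {n N : ℕ}

variable {h : Fin n → Fin n → MC n N} {q : Fin n → MC n N} {G : Fin n → Fin n → MC n N}
  {D : Fin n → MC n N} {τ : MC n N} {κ : Fin n → MC n N}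

/-- The error terms are small. -/
lemma err_bd (hA3 : RowA3) (n N : ℕ) : ∃ C : ℝ, 0 < C ∧ ∀ (h : Fin n → Fin n → MC n N)
    (q : Fin n → MC n N) (G : Fin n → Fin n → MC n N) (D : Fin n → MC n N) (τ : MC n N)
    (κ : Fin n → MC n N), GDat h q G D τ κ → ∀ A ρ ε : ℝ, 0 ≤ A → 0 ≤ ρ → 0 ≤ ε →
    (∀ a i, ClC (n + 2 + n + 1) ε (G a i)) → ClC (n + 2 + n + 1) ε (fun x => τ x - 1) →
    (∀ i, ClC (n + 2 + n + 1) ε (κ i)) →
    (∀ i j α β, Bd (n + 2) A fun x => h i j x α β) →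
    (∀ i α β, Bd (n + 1) A fun x => q i x α β) →
    (∀ i a α β, Bd (n + 2) ρ (pd i fun x => D a x α β)) →
    (∀ i a α β, Bd (n + 2) (C * ε * (A + ρ)) (eM h G D τ i a α β)) ∧
    ∀ a α β, Bd (n + 1) (C * ε * (A + ρ)) (psM q G D κ a α β) := by
  obtain ⟨c1, hc1, m1⟩ := mul_bd hA3 n (n + 2)
  obtain ⟨c2, hc2, m2⟩ := mul_bd' hA3 n (n + 2)
  obtain ⟨c3, hc3, m3⟩ := mul_bd hA3 n (n + 1)
  obtain ⟨c4, hc4, m4⟩ := mul_bd' hA3 n (n + 1)
  set c := c1 + c2 + c3 + c4 with hc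
  have hc0 : 0 < c := by positivity
  have hcl : ∀ {f : V n → ℂ} {ε : ℝ}, Cl (n + 2 + n + 1) ε f → Cl (n + 1 + n + 1) ε f :=
    fun hf l hl x => hf l (by omega) x
  refine ⟨c * ((n : ℝ) * N + N + 1), by positivity, ?_⟩
  intro h q G D τ κ H A ρ ε hA hρ hε hG hτ hκ bh bq bD
  have hAε : 0 ≤ c * ε * (A + ρ) := by positivity
  have w1 : c1 * ε * A ≤ c * ε * A := by gcongr; linarith
  have w2 : c2 * ε * ρ ≤ c * ε * ρ := by gcongr; linarith
  have w3 : c3 * ε * A ≤ c * ε * A := by gcongr; linarith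
  have w4 : c4 * ε * ρ ≤ c * ε * ρ := by gcongr; linarith
  constructor
  · intro i a α β
    unfold eM
    have b1 : Bd (n + 2) (Fintype.card (Fin n) * (Fintype.card (Fin N) * (c1 * ε * A)))
        fun y => ∑ j, ∑ γ, h i j y α γ * G a j y γ β :=
      Bd.sum (fun j => Bd.sum (fun γ => m1 _ _ A ε (H.sh i j α γ) (bh i j α γ) (H.sG a j γ β)
        (hG a j γ β)) fun γ => (H.sh i j α γ).mul (H.sG a j γ β))
        fun j => Sb.sum fun γ => (H.sh i j α γ).mul (H.sG a j γ β)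
    have b2 : Bd (n + 2) (Fintype.card (Fin N) * (c2 * ε * ρ))
        fun y => ∑ γ, (τ y - 1) α γ * pd i (fun z => D a z γ β) y :=
      Bd.sum (fun γ => m2 _ _ ρ ε ((H.sD a γ β).pd i) (bD i a γ β) (H.sm1 α γ)
        (hτ α γ)) fun γ => ((H.sD a γ β).pd i).mul' (H.sm1 α γ)
    have b3 := Bd.add b1 b2 (Sb.sum fun j => Sb.sum fun γ => (H.sh i j α γ).mul (H.sG a j γ β))
      (Sb.sum fun γ => ((H.sD a γ β).pd i).mul' (H.sm1 α γ))
    refine b3.le ?_
    rw [Fintype.card_fin, Fintype.card_fin]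
    calc (n : ℝ) * (N * (c1 * ε * A)) + N * (c2 * ε * ρ)
        ≤ (n : ℝ) * (N * (c * ε * A)) + N * (c * ε * ρ) := by gcongr
      _ ≤ c * ((n : ℝ) * N + N + 1) * ε * (A + ρ) := by
        have h1 : c * ((n : ℝ) * N + N + 1) * ε * (A + ρ)
            = ((n : ℝ) * (N * (c * ε * A)) + N * (c * ε * ρ))
              + (c * ε * ((n : ℝ) * N * ρ + N * A + (A + ρ))) := by ring
        rw [h1]
        have h2 : 0 ≤ c * ε * ((n : ℝ) * N * ρ + N * A + (A + ρ)) := by positivity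
        linarith
  · intro a α β
    unfold psM
    have b1 : Bd (n + 1) (Fintype.card (Fin n) * (Fintype.card (Fin N) * (c3 * ε * A)))
        fun y => ∑ i, ∑ γ, q i y α γ * G a i y γ β :=
      Bd.sum (fun i => Bd.sum (fun γ => m3 _ _ A ε (H.sq i α γ) (bq i α γ) (H.sG a i γ β)
        (hcl (hG a i γ β))) fun γ => (H.sq i α γ).mul (H.sG a i γ β))
        fun i => Sb.sum fun γ => (H.sq i α γ).mul (H.sG a i γ β)
    have b2 : Bd (n + 1) (Fintype.card (Fin n) * (Fintype.card (Fin N) * (c4 * ε * ρ)))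
        fun y => ∑ i, ∑ γ, κ i y α γ * pd i (fun z => D a z γ β) y :=
      Bd.sum (fun i => Bd.sum (fun γ => m4 _ _ ρ ε ((H.sD a γ β).pd i)
        ((bD i a γ β).mono (by omega)) (H.sκ i α γ)
        (hcl (hκ i α γ))) fun γ => ((H.sD a γ β).pd i).mul' (H.sκ i α γ))
        fun i => Sb.sum fun γ => ((H.sD a γ β).pd i).mul' (H.sκ i α γ)
    have b3 := Bd.add b1 b2 (Sb.sum fun i => Sb.sum fun γ => (H.sq i α γ).mul (H.sG a i γ β))
      (Sb.sum fun i => Sb.sum fun γ => ((H.sD a γ β).pd i).mul' (H.sκ i α γ))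
    refine b3.le ?_
    rw [Fintype.card_fin, Fintype.card_fin]
    calc (n : ℝ) * (N * (c3 * ε * A)) + n * (N * (c4 * ε * ρ))
        ≤ (n : ℝ) * (N * (c * ε * A)) + n * (N * (c * ε * ρ)) := by gcongr
      _ ≤ c * ((n : ℝ) * N + N + 1) * ε * (A + ρ) := by
        have h1 : c * ((n : ℝ) * N + N + 1) * ε * (A + ρ)
            = ((n : ℝ) * (N * (c * ε * A)) + n * (N * (c * ε * ρ)))
              + (c * ε * (N * (A + ρ) + (A + ρ))) := by ring
        rw [h1]
        have h2 : 0 ≤ c * ε * (N * (A + ρ) + (A + ρ)) := by positivity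
        linarith

/-- One coefficient of the derivative of `D`. -/
lemma GDat.D1 (H : GDat h q G D τ κ) {A e : ℝ} (hA : 0 ≤ A) (he : 0 ≤ e)
    (bh : ∀ i j α β, Bd (n + 2) A fun x => h i j x α β)
    (bq : ∀ i α β, Bd (n + 1) A fun x => q i x α β)
    (be : ∀ i a α β, Bd (n + 2) e (eM h G D τ i a α β))
    (bp : ∀ a α β, Bd (n + 1) e (psM q G D κ a α β)) (j a : Fin n) (α β : Fin N) (k : Ix n) :
    wt k ^ (n + 2) * ‖cf 0 (pd j fun x => D a x α β) k‖ ≤ (2 * n + 1) * (A + e) := by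
  have hAe : 0 ≤ A + e := add_nonneg hA he
  have hn0 : (0 : ℝ) ≤ n := Nat.cast_nonneg n
  have hw : 0 < wt k := H501.wt_pos k
  have hW : 0 ≤ wt k ^ (n + 2) := pow_nonneg hw.le _
  rw [cf_pd (H.sD a α β)]
  rcases eq_or_ne k 0 with hk | hk
  · have h1 : fr (0 : V n) k j = 0 := by
      rw [hk]
      simp [fr]
    rw [h1]
    simp only [Complex.ofReal_zero, mul_zero, zero_mul, norm_zero]
    positivity
  set X : ℝ := nr (fr 0 k) with hX
  have hX1 : 1 ≤ X := one_le_nr_fr hk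
  have hX0 : 0 < X := by linarith
  have hwX : wt k ≤ (n + 1) * X := wt_le_nr hk
  set W : ℝ := wt k ^ (n + 2) with hWd
  set d : ℂ := cf 0 (fun x => D a x α β) k with hd
  have hid := H.idf a α β k
  set S : ℂ := ∑ i, 2 * Real.pi * Complex.I * (fr 0 k i : ℂ) * (cf 0 (fun x => h i a x α β) k
      + cf 0 (eM h G D τ i a α β) k) with hS
  set Q : ℂ := cf 0 (fun x => q a x α β) k + cf 0 (psM q G D κ a α β) k with hQ
  have hX2 : ((X : ℝ) : ℂ) ^ 2 = ∑ i, (fr 0 k i : ℂ) ^ 2 := by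
    rw [hX, ← Complex.ofReal_pow, nr_sq]
    push_cast
    rfl
  have h1 : (2 * Real.pi : ℝ) ^ 2 * X ^ 2 * d = S + Q := by
    have h2 : S + (2 * Real.pi * Complex.I) ^ 2 * ((X : ℝ) : ℂ) ^ 2 * d + Q = 0 := by
      rw [← hid, hX2, hS, hQ, Finset.mul_sum, Finset.sum_mul, ← add_assoc,
        ← Finset.sum_add_distrib]
      congr 2
      exact Finset.sum_congr rfl fun i _ => by ring
    have h3 : (Complex.I) ^ 2 = -1 := Complex.I_sq
    push_cast
    have h4 : (2 * (Real.pi : ℂ) * Complex.I) ^ 2 = -(2 * (Real.pi : ℂ)) ^ 2 := by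
      rw [mul_pow, h3]; ring
    rw [h4] at h2
    linear_combination -h2
  have hpi : (1 : ℝ) ≤ 2 * Real.pi := by linarith [Real.pi_gt_three]
  have hpi0 : (0 : ℝ) < 2 * Real.pi := by linarith
  have hS' : W * ‖S‖ ≤ 2 * Real.pi * (n * X * (A + e)) := by
    calc W * ‖S‖ ≤ W * ∑ i, 2 * Real.pi * |fr 0 k i| * (‖cf 0 (fun x => h i a x α β) k‖
          + ‖cf 0 (eM h G D τ i a α β) k‖) := by
          refine mul_le_mul_of_nonneg_left ?_ hW
          refine (norm_sum_le _ _).trans (Finset.sum_le_sum fun i _ => ?_)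
          rw [norm_mul, norm_mul, norm_mul, Complex.norm_I, mul_one, Complex.norm_real,
            Real.norm_eq_abs]
          have h5 : ‖(2 * (Real.pi : ℂ))‖ = 2 * Real.pi := by
            rw [norm_mul, Complex.norm_real, Real.norm_eq_abs, abs_of_pos Real.pi_pos]
            simp
          rw [h5]
          exact mul_le_mul_of_nonneg_left (norm_add_le _ _) (by positivity)
      _ = ∑ i, 2 * Real.pi * |fr 0 k i| * (W * ‖cf 0 (fun x => h i a x α β) k‖
          + W * ‖cf 0 (eM h G D τ i a α β) k‖) := by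
          rw [Finset.mul_sum]
          exact Finset.sum_congr rfl fun i _ => by ring
      _ ≤ ∑ i, 2 * Real.pi * |fr 0 k i| * (A + e) := by
          refine Finset.sum_le_sum fun i _ => ?_
          exact mul_le_mul_of_nonneg_left (add_le_add (bh i a α β k) (be i a α β k))
            (by positivity)
      _ = 2 * Real.pi * ((∑ i, |fr 0 k i|) * (A + e)) := by
          rw [Finset.sum_mul, Finset.mul_sum]
          exact Finset.sum_congr rfl fun i _ => by ring
      _ ≤ 2 * Real.pi * (n * X * (A + e)) := by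
          refine mul_le_mul_of_nonneg_left ?_ hpi0.le
          exact mul_le_mul_of_nonneg_right (sum_abs_le _) hAe
  have hQ' : W * ‖Q‖ ≤ (n + 1) * X * (A + e) := by
    have h2 : W = wt k * wt k ^ (n + 1) := by rw [hWd]; ring
    have h3 : wt k ^ (n + 1) * ‖Q‖ ≤ A + e := by
      calc wt k ^ (n + 1) * ‖Q‖ ≤ wt k ^ (n + 1) * (‖cf 0 (fun x => q a x α β) k‖
            + ‖cf 0 (psM q G D κ a α β) k‖) :=
            mul_le_mul_of_nonneg_left (norm_add_le _ _) (pow_nonneg hw.le _)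
        _ = wt k ^ (n + 1) * ‖cf 0 (fun x => q a x α β) k‖
            + wt k ^ (n + 1) * ‖cf 0 (psM q G D κ a α β) k‖ := by ring
        _ ≤ A + e := add_le_add (bq a α β k) (bp a α β k)
    calc W * ‖Q‖ = wt k * (wt k ^ (n + 1) * ‖Q‖) := by rw [h2]; ring
      _ ≤ (n + 1) * X * (A + e) := mul_le_mul hwX h3 (by positivity) (by positivity)
  have h2 : (2 * Real.pi) ^ 2 * X ^ 2 * (W * ‖d‖) ≤ 2 * Real.pi * ((2 * n + 1) * X * (A + e)) := by
    have h3 : (2 * Real.pi) ^ 2 * X ^ 2 * (W * ‖d‖) = W * ‖S + Q‖ := by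
      rw [← h1, norm_mul, norm_mul, norm_pow, norm_pow, Complex.norm_real, Complex.norm_real,
        Real.norm_eq_abs, Real.norm_eq_abs, abs_of_pos hpi0, abs_of_pos hX0]
      ring
    rw [h3]
    calc W * ‖S + Q‖ ≤ W * ‖S‖ + W * ‖Q‖ := by
          rw [← mul_add]
          exact mul_le_mul_of_nonneg_left (norm_add_le _ _) hW
      _ ≤ 2 * Real.pi * (n * X * (A + e)) + (n + 1) * X * (A + e) := add_le_add hS' hQ'
      _ ≤ 2 * Real.pi * (n * X * (A + e)) + 2 * Real.pi * ((n + 1) * X * (A + e)) := by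
          have h4 : 0 ≤ (n + 1) * X * (A + e) := by positivity
          have h5 := mul_le_mul_of_nonneg_right hpi h4
          linarith
      _ = 2 * Real.pi * ((2 * n + 1) * X * (A + e)) := by ring
  have h3 : 2 * Real.pi * X * (W * ‖d‖) ≤ (2 * n + 1) * (A + e) := by
    have h4 : (2 * Real.pi * X) * (2 * Real.pi * X * (W * ‖d‖))
        ≤ (2 * Real.pi * X) * ((2 * n + 1) * (A + e)) := by
      calc (2 * Real.pi * X) * (2 * Real.pi * X * (W * ‖d‖))
          = (2 * Real.pi) ^ 2 * X ^ 2 * (W * ‖d‖) := by ring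
        _ ≤ 2 * Real.pi * ((2 * n + 1) * X * (A + e)) := h2
        _ = (2 * Real.pi * X) * ((2 * n + 1) * (A + e)) := by ring
    exact le_of_mul_le_mul_left h4 (by positivity)
  have h5 : ‖2 * (Real.pi : ℂ) * Complex.I * (fr 0 k j : ℂ) * d‖ = 2 * Real.pi * |fr 0 k j| * ‖d‖ := by
    rw [norm_mul, norm_mul, norm_mul, norm_mul, Complex.norm_I, mul_one, Complex.norm_real,
      Complex.norm_real, Real.norm_eq_abs, Real.norm_eq_abs, abs_of_pos Real.pi_pos]
    simp
  rw [h5]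
  calc W * (2 * Real.pi * |fr 0 k j| * ‖d‖) = 2 * Real.pi * |fr 0 k j| * (W * ‖d‖) := by ring
    _ ≤ 2 * Real.pi * X * (W * ‖d‖) := by
        refine mul_le_mul_of_nonneg_right ?_ (by positivity)
        exact mul_le_mul_of_nonneg_left (abs_le_nr _ j) hpi0.le
    _ ≤ _ := h3

end Vale.Agent.P088.LR.U.H599
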