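import Vale.Agent.P088.H599.J.Abs3

/-!
# P088, row U_ABS, part 4: the bound of the divergence of the trace
-/

open MeasureTheory Set
open scoped ContDiff Matrix

noncomputable section

namespace Vale.Agent.P088.LR.U.H599

open Vale.Agent.P088.LR.CF Vale.Agent.P088.LR.CF.H599 Vale.Agent.P088.LR.U H158

variable {n N : ℕ}

variable {h : Fin n → Fin n → MC n N} {q : Fin n → MC n N} {G : Fin n → Fin n → MC n N}
  {D : Fin n → MC n N} {τ : MC n N} {κ : Fin n → MC n N}

/-- The bound of the derivatives of `D`, and of the error terms. -/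
lemma D_bd (hA3 : RowA3) (n N : ℕ) : ∃ C : ℝ, 0 < C ∧ ∀ (h : Fin n → Fin n → MC n N)
    (q : Fin n → MC n N) (G : Fin n → Fin n → MC n N) (D : Fin n → MC n N) (τ : MC n N)
    (κ : Fin n → MC n N), GDat h q G D τ κ → ∀ A ε : ℝ, 0 ≤ A → 0 ≤ ε → C * ε ≤ 1 →
    (∀ a i, ClC (n + 2 + n + 1) ε (G a i)) → ClC (n + 2 + n + 1) ε (fun x => τ x - 1) →
    (∀ i, ClC (n + 2 + n + 1) ε (κ i)) →
    (∀ i j α β, Bd (n + 2) A fun x => h i j x α β) →
    (∀ i α β, Bd (n + 1) A fun x => q i x α β) →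
    (∀ i a α β, Bd (n + 2) (C * ε * A) (eM h G D τ i a α β)) ∧
    ∀ a α β, Bd (n + 1) (C * ε * A) (psM q G D κ a α β) := by
  obtain ⟨c, hc, H0⟩ := err_bd hA3 n N
  have hn0 : (0 : ℝ) ≤ n := Nat.cast_nonneg n
  refine ⟨c * (4 * n + 4), by positivity, ?_⟩
  intro h q G D τ κ H A ε hA hε hCε hG hτ hκ bh bq
  -- the supremum
  have key : ∀ i a α β, Bd (n + 2) ((4 * n + 3) * A) (pd i fun x => D a x α β) := by
    intro i₀ a₀ α₀ β₀ k₀
    haveI : Nonempty (Fin n × Fin n × Fin N × Fin N × Ix n) := ⟨(i₀, a₀, α₀, β₀, k₀)⟩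
    set T : Fin n × Fin n × Fin N × Fin N × Ix n → ℝ := fun p =>
      wt p.2.2.2.2 ^ (n + 2)
        * ‖cf 0 (pd p.1 fun x => D p.2.1 x p.2.2.1 p.2.2.2.1) p.2.2.2.2‖ with hT
    have hT0 : ∀ p, 0 ≤ T p := fun p =>
      mul_nonneg (pow_nonneg (H501.wt_pos _).le _) (norm_nonneg _)
    have hbdd : BddAbove (range T) := by
      refine ⟨∑ i : Fin n, ∑ a : Fin n, ∑ α : Fin N, ∑ β : Fin N,
        nm (n + 2) (cf 0 (pd i fun x => D a x α β)), ?_⟩
      rintro _ ⟨⟨i, a, α, β, k⟩, rfl⟩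
      have hnn : ∀ (i a : Fin n) (α β : Fin N), 0 ≤ nm (n + 2) (cf 0 (pd i fun x => D a x α β)) :=
        fun i a α β => tsum_nonneg fun k =>
          mul_nonneg (pow_nonneg (H501.wt_pos k).le _) (norm_nonneg _)
      have h1 : T (i, a, α, β, k) ≤ nm (n + 2) (cf 0 (pd i fun x => D a x α β)) :=
        term_le_nm (((H.sD a α β).pd i).rd hA3).1 (n + 2) k
      refine h1.trans ?_
      refine le_trans (Finset.single_le_sum (f := fun β =>
        nm (n + 2) (cf 0 (pd i fun x => D a x α β))) (fun β _ => hnn i a α β)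
        (Finset.mem_univ β)) ?_
      refine le_trans (Finset.single_le_sum (f := fun α => ∑ β,
        nm (n + 2) (cf 0 (pd i fun x => D a x α β))) (fun α _ => Finset.sum_nonneg fun β _ =>
          hnn i a α β) (Finset.mem_univ α)) ?_
      refine le_trans (Finset.single_le_sum (f := fun a => ∑ α, ∑ β,
        nm (n + 2) (cf 0 (pd i fun x => D a x α β))) (fun a _ => Finset.sum_nonneg fun α _ =>
          Finset.sum_nonneg fun β _ => hnn i a α β) (Finset.mem_univ a)) ?_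
      exact Finset.single_le_sum (f := fun i => ∑ a, ∑ α, ∑ β,
        nm (n + 2) (cf 0 (pd i fun x => D a x α β))) (fun i _ => Finset.sum_nonneg fun a _ =>
          Finset.sum_nonneg fun α _ => Finset.sum_nonneg fun β _ => hnn i a α β)
          (Finset.mem_univ i)
    set ρ : ℝ := ⨆ p, T p with hρ
    have hTρ : ∀ p, T p ≤ ρ := fun p => le_ciSup hbdd p
    have hρ0 : 0 ≤ ρ := (hT0 (Classical.arbitrary _)).trans (hTρ _)
    obtain ⟨b1, b2⟩ := H0 h q G D τ κ H A ρ ε hA hρ0 hε hG hτ hκ bh bq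
      fun i a α β k => hTρ (i, a, α, β, k)
    have he0 : 0 ≤ c * ε * (A + ρ) := by positivity
    have h1 : ρ ≤ (2 * n + 1) * (A + c * ε * (A + ρ)) := by
      refine ciSup_le ?_
      rintro ⟨i, a, α, β, k⟩
      exact H.D1 hA he0 bh bq b1 b2 i a α β k
    have h2 : (2 * n + 1) * (c * ε * (A + ρ)) ≤ 1 / 2 * (A + ρ) := by
      have h3 : (2 * n + 1) * (c * ε) ≤ 1 / 2 := by
        have h4 : c * (4 * n + 4) * ε = 2 * ((2 * n + 1) * (c * ε)) + 2 * (c * ε) := by ring
        have h5 : 0 ≤ c * ε := by positivity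
        linarith
      calc (2 * n + 1) * (c * ε * (A + ρ)) = ((2 * n + 1) * (c * ε)) * (A + ρ) := by ring
        _ ≤ 1 / 2 * (A + ρ) := mul_le_mul_of_nonneg_right h3 (by positivity)
    have h3 : ρ ≤ (4 * n + 3) * A := by
      have h4 : (2 * (n : ℝ) + 1) * (A + c * ε * (A + ρ))
          = (2 * n + 1) * A + (2 * n + 1) * (c * ε * (A + ρ)) := by ring
      linarith
    exact (hTρ (i₀, a₀, α₀, β₀, k₀)).trans h3
  obtain ⟨b1, b2⟩ := H0 h q G D τ κ H A ((4 * n + 3) * A) ε hA (by positivity) hε hG hτ hκ bh bq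
    key
  have h4 : c * ε * (A + (4 * n + 3) * A) = c * (4 * n + 4) * ε * A := by ring
  rw [h4] at b1 b2
  exact ⟨b1, b2⟩

lemma cf_neg_fun (f : V n → ℂ) (k : Ix n) : cf 0 (fun x => -f x) k = -cf 0 f k := by
  have h := cf_smul (-1) f k
  simpa using h

/-- The divergence of the trace. -/
lemma gauge (hA3 : RowA3) (n N : ℕ) : ∃ C : ℝ, 0 < C ∧ ∀ (h : Fin n → Fin n → MC n N)
    (q : Fin n → MC n N) (G : Fin n → Fin n → MC n N) (D : Fin n → MC n N) (τ : MC n N)
    (κ : Fin n → MC n N), GDat h q G D τ κ → ∀ A ε : ℝ, 0 ≤ A → 0 ≤ ε → C * ε ≤ 1 →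
    (∀ a i, ClC (n + 2 + n + 1) ε (G a i)) → ClC (n + 2 + n + 1) ε (fun x => τ x - 1) →
    (∀ i, ClC (n + 2 + n + 1) ε (κ i)) →
    (∀ i j α β, Bd (n + 2) A fun x => h i j x α β) →
    (∀ i α β, Bd (n + 1) A fun x => q i x α β) →
    (∀ i j x, star (∑ α, h i j x α α) = ∑ α, h i j x α α) →
    (∀ i x, star (∑ α, q i x α α) = -∑ α, q i x α α) →
    (∀ a x, star (∑ α, D a x α α) = -∑ α, D a x α α) →
    ∀ (a : Fin n) (k : Ix n), k ≠ 0 → wt k ^ (n + 2) * ‖∑ i, (fr 0 k i : ℂ)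
      * cf 0 (fun x => ∑ α, h i a x α α) k‖ ≤ C * ε * A * nr (fr 0 k) := by
  obtain ⟨c, hc, H0⟩ := D_bd hA3 n N
  have hn0 : (0 : ℝ) ≤ n := Nat.cast_nonneg n
  refine ⟨c * (N * (2 * n + 1) + 1), by positivity, ?_⟩
  intro h q G D τ κ H A ε hA hε hCε hG hτ hκ bh bq rh rq rD a k hk
  have hcε : c * ε ≤ 1 := by
    have h1 : c * (N * (2 * n + 1) + 1) * ε = c * ε + c * ε * (N * (2 * n + 1)) := by ring
    have h2 : 0 ≤ c * ε * (N * (2 * n + 1)) := by positivity
    linarith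
  obtain ⟨b1, b2⟩ := H0 h q G D τ κ H A ε hA hε hcε hG hτ hκ bh bq
  have he0 : 0 ≤ c * ε * A := by positivity
  -- the traces
  set U : Fin n → Ix n → ℂ := fun i k => cf 0 (fun x => ∑ α, h i a x α α) k with hU
  set E : Fin n → Ix n → ℂ := fun i k => ∑ α, cf 0 (eM h G D τ i a α α) k with hE
  set dd : Ix n → ℂ := fun k => cf 0 (fun x => ∑ α, D a x α α) k with hdd
  set qq : Ix n → ℂ := fun k => cf 0 (fun x => ∑ α, q a x α α) k with hqq
  set P : Ix n → ℂ := fun k => ∑ α, cf 0 (psM q G D κ a α α) k with hP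
  set L : ℂ := 2 * Real.pi * Complex.I with hL
  have hI : ∀ k : Ix n, (∑ i, L * (fr 0 k i : ℂ) * ((U i k + E i k)
      + L * (fr 0 k i : ℂ) * dd k) + qq k) + P k = 0 := by
    intro k
    have h1 : ∑ α, ((∑ i, 2 * Real.pi * Complex.I * (fr 0 k i : ℂ) * ((cf 0 (fun x => h i a x α α) k
      + cf 0 (eM h G D τ i a α α) k)
      + 2 * Real.pi * Complex.I * (fr 0 k i : ℂ) * cf 0 (fun z => D a z α α) k)
      + cf 0 (fun x => q a x α α) k) + cf 0 (psM q G D κ a α α) k) = 0 :=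
      Finset.sum_eq_zero fun α _ => H.idf a α α k
    rw [Finset.sum_add_distrib, Finset.sum_add_distrib, Finset.sum_comm] at h1
    rw [← h1]
    simp only [hU, hE, hdd, hqq, hP]
    rw [cf_sum (fun α => H.sq a α α)]
    congr 2
    refine Finset.sum_congr rfl fun i _ => ?_
    rw [cf_sum (fun α => H.sh i a α α), cf_sum (fun α => H.sD a α α), ← Finset.sum_add_distrib,
      Finset.mul_sum, ← Finset.sum_add_distrib, Finset.mul_sum]
  have cU : ∀ i (k : Ix n), star (U i (-k)) = U i k := by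
    intro i k
    simp only [hU]
    rw [← cf_star]
    simp only [rh]
  have cd' : ∀ k : Ix n, star (dd (-k)) = -dd k := by
    intro k
    simp only [hdd]
    rw [← cf_star, ← cf_neg_fun]
    simp only [rD]
  have cq : ∀ k : Ix n, star (qq (-k)) = -qq k := by
    intro k
    simp only [hqq]
    rw [← cf_star, ← cf_neg_fun]
    simp only [rq]
  have hLs : star L = -L := by
    simp only [hL, Complex.star_def, map_mul, Complex.conj_ofReal, Complex.conj_I, map_ofNat]
    ring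
  have hLn : ‖L‖ = 2 * Real.pi := by
    rw [hL, norm_mul, norm_mul, Complex.norm_I, mul_one, Complex.norm_real, Real.norm_eq_abs,
      abs_of_pos Real.pi_pos]
    simp
  clear_value L
  have hfr : ∀ i, (fr (0 : V n) (-k) i) = -fr 0 k i := by
    intro i
    simp [fr]
  have hII : (∑ i, L * (fr 0 k i : ℂ) * ((U i k + star (E i (-k)))
      - L * (fr 0 k i : ℂ) * dd k) - qq k) + star (P (-k)) = 0 := by
    have h1 := congrArg star (hI (-k))
    rw [star_zero, star_add, star_add, star_sum, cq] at h1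
    rw [← h1]
    have h2 : ∀ i, star (L * (fr 0 (-k) i : ℂ) * ((U i (-k) + E i (-k))
      + L * (fr 0 (-k) i : ℂ) * dd (-k))) = L * (fr 0 k i : ℂ) * ((U i k + star (E i (-k)))
      - L * (fr 0 k i : ℂ) * dd k) := by
      intro i
      rw [star_mul', star_mul', star_add, star_add, star_mul', star_mul', cU, cd', hLs, hfr i]
      have h3 : star ((-(fr (0 : V n) k i) : ℝ) : ℂ) = -((fr (0 : V n) k i : ℝ) : ℂ) := by
        rw [Complex.star_def, Complex.conj_ofReal]
        push_cast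
        ring
      rw [h3]
      ring
    simp only [h2]
    ring
  have hsum : 2 * (∑ i, L * (fr 0 k i : ℂ) * U i k)
      = -((∑ i, L * (fr 0 k i : ℂ) * (E i k + star (E i (-k)))) + (P k + star (P (-k)))) := by
    have h1 : ((∑ i, L * (fr 0 k i : ℂ) * ((U i k + E i k)
      + L * (fr 0 k i : ℂ) * dd k) + qq k) + P k) + ((∑ i, L * (fr 0 k i : ℂ)
        * ((U i k + star (E i (-k))) - L * (fr 0 k i : ℂ) * dd k) - qq k) + star (P (-k))) = 0 := by
      rw [hI k, hII, add_zero]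
    have h2 : (∑ i, L * (fr 0 k i : ℂ) * ((U i k + E i k)
      + L * (fr 0 k i : ℂ) * dd k)) + (∑ i, L * (fr 0 k i : ℂ)
        * ((U i k + star (E i (-k))) - L * (fr 0 k i : ℂ) * dd k))
        = 2 * (∑ i, L * (fr 0 k i : ℂ) * U i k)
          + ∑ i, L * (fr 0 k i : ℂ) * (E i k + star (E i (-k))) := by
      rw [Finset.mul_sum, ← Finset.sum_add_distrib, ← Finset.sum_add_distrib]
      exact Finset.sum_congr rfl fun i _ => by ring
    linear_combination h1 - h2
  set X : ℝ := nr (fr 0 k) with hX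
  have hX1 : 1 ≤ X := one_le_nr_fr hk
  have hw : 0 < wt k := H501.wt_pos k
  set W : ℝ := wt k ^ (n + 2) with hW
  have hW0 : 0 < W := pow_pos hw _
  have hEb : ∀ i, W * ‖E i k + star (E i (-k))‖ ≤ 2 * (N * (c * ε * A)) := by
    intro i
    have h1 : ∀ k : Ix n, wt k ^ (n + 2) * ‖E i k‖ ≤ N * (c * ε * A) := by
      intro k
      calc wt k ^ (n + 2) * ‖E i k‖ ≤ wt k ^ (n + 2) * ∑ α, ‖cf 0 (eM h G D τ i a α α) k‖ :=
            mul_le_mul_of_nonneg_left (norm_sum_le _ _) (pow_nonneg (H501.wt_pos k).le _)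
        _ = ∑ α, wt k ^ (n + 2) * ‖cf 0 (eM h G D τ i a α α) k‖ := by rw [Finset.mul_sum]
        _ ≤ ∑ _α : Fin N, c * ε * A := Finset.sum_le_sum fun α _ => b1 i a α α k
        _ = N * (c * ε * A) := by simp
    have h2 := h1 (-k)
    rw [wt_neg] at h2
    calc W * ‖E i k + star (E i (-k))‖ ≤ W * (‖E i k‖ + ‖star (E i (-k))‖) :=
          mul_le_mul_of_nonneg_left (norm_add_le _ _) hW0.le
      _ = W * ‖E i k‖ + W * ‖E i (-k)‖ := by rw [norm_star]; ring
      _ ≤ _ := by linarith [h1 k]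
  have hPb : W * ‖P k + star (P (-k))‖ ≤ 2 * ((n + 1) * X * (N * (c * ε * A))) := by
    have h1 : ∀ k : Ix n, wt k ^ (n + 1) * ‖P k‖ ≤ N * (c * ε * A) := by
      intro k
      calc wt k ^ (n + 1) * ‖P k‖ ≤ wt k ^ (n + 1) * ∑ α, ‖cf 0 (psM q G D κ a α α) k‖ :=
            mul_le_mul_of_nonneg_left (norm_sum_le _ _) (pow_nonneg (H501.wt_pos k).le _)
        _ = ∑ α, wt k ^ (n + 1) * ‖cf 0 (psM q G D κ a α α) k‖ := by rw [Finset.mul_sum]
        _ ≤ ∑ _α : Fin N, c * ε * A := Finset.sum_le_sum fun α _ => b2 a α α k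
        _ = N * (c * ε * A) := by simp
    have h2 := h1 (-k)
    rw [wt_neg] at h2
    have h3 : wt k ^ (n + 1) * ‖P k + star (P (-k))‖ ≤ 2 * (N * (c * ε * A)) := by
      calc wt k ^ (n + 1) * ‖P k + star (P (-k))‖ ≤ wt k ^ (n + 1) * (‖P k‖ + ‖star (P (-k))‖) :=
            mul_le_mul_of_nonneg_left (norm_add_le _ _) (pow_nonneg hw.le _)
        _ = wt k ^ (n + 1) * ‖P k‖ + wt k ^ (n + 1) * ‖P (-k)‖ := by rw [norm_star]; ring
        _ ≤ _ := by linarith [h1 k]
    calc W * ‖P k + star (P (-k))‖ = wt k * (wt k ^ (n + 1) * ‖P k + star (P (-k))‖) := by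
          rw [hW]; ring
      _ ≤ ((n + 1) * X) * (2 * (N * (c * ε * A))) :=
          mul_le_mul (wt_le_nr hk) h3 (by positivity) (by positivity)
      _ = _ := by ring
  have hpi : (1 : ℝ) ≤ 2 * Real.pi := by linarith [Real.pi_gt_three]
  have hpi0 : (0 : ℝ) < 2 * Real.pi := by linarith
  have h3 : 2 * (2 * Real.pi) * (W * ‖∑ i, (fr 0 k i : ℂ) * U i k‖)
      ≤ 2 * Real.pi * (n * X * (2 * (N * (c * ε * A)))) + 2 * ((n + 1) * X * (N * (c * ε * A))) := by
    have h4 : 2 * (2 * Real.pi) * (W * ‖∑ i, (fr 0 k i : ℂ) * U i k‖)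
        = W * ‖2 * (∑ i, L * (fr 0 k i : ℂ) * U i k)‖ := by
      have h5 : ∑ i, L * (fr 0 k i : ℂ) * U i k = L * ∑ i, (fr 0 k i : ℂ) * U i k := by
        rw [Finset.mul_sum]
        exact Finset.sum_congr rfl fun i _ => by ring
      rw [h5, norm_mul, norm_mul, hLn]
      simp only [Complex.norm_ofNat]
      ring
    rw [h4, hsum, norm_neg]
    have h6 : W * ‖∑ i, L * (fr 0 k i : ℂ) * (E i k + star (E i (-k)))‖
        ≤ 2 * Real.pi * (n * X * (2 * (N * (c * ε * A)))) := by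
      calc W * ‖∑ i, L * (fr 0 k i : ℂ) * (E i k + star (E i (-k)))‖
          ≤ W * ∑ i, 2 * Real.pi * |fr 0 k i| * ‖E i k + star (E i (-k))‖ := by
            refine mul_le_mul_of_nonneg_left ?_ hW0.le
            refine (norm_sum_le _ _).trans (Finset.sum_le_sum fun i _ => ?_)
            rw [norm_mul, norm_mul, hLn, Complex.norm_real, Real.norm_eq_abs]
        _ = ∑ i, 2 * Real.pi * |fr 0 k i| * (W * ‖E i k + star (E i (-k))‖) := by
            rw [Finset.mul_sum]
            exact Finset.sum_congr rfl fun i _ => by ring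
        _ ≤ ∑ i, 2 * Real.pi * |fr 0 k i| * (2 * (N * (c * ε * A))) :=
            Finset.sum_le_sum fun i _ => mul_le_mul_of_nonneg_left (hEb i) (by positivity)
        _ = 2 * Real.pi * ((∑ i, |fr 0 k i|) * (2 * (N * (c * ε * A)))) := by
            rw [Finset.sum_mul, Finset.mul_sum]
            exact Finset.sum_congr rfl fun i _ => by ring
        _ ≤ _ := by
            refine mul_le_mul_of_nonneg_left ?_ hpi0.le
            exact mul_le_mul_of_nonneg_right (sum_abs_le _) (by positivity)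
    calc W * ‖(∑ i, L * (fr 0 k i : ℂ) * (E i k + star (E i (-k)))) + (P k + star (P (-k)))‖
        ≤ W * (‖∑ i, L * (fr 0 k i : ℂ) * (E i k + star (E i (-k)))‖ + ‖P k + star (P (-k))‖) :=
          mul_le_mul_of_nonneg_left (norm_add_le _ _) hW0.le
      _ = W * ‖∑ i, L * (fr 0 k i : ℂ) * (E i k + star (E i (-k)))‖
          + W * ‖P k + star (P (-k))‖ := by ring
      _ ≤ _ := add_le_add h6 hPb
  have h7 : 0 ≤ (n + 1) * X * (N * (c * ε * A)) := by positivity
  have h8 : 2 * ((n + 1) * X * (N * (c * ε * A)))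
      ≤ 2 * (2 * Real.pi) * ((n + 1) * X * (N * (c * ε * A))) := by
    have := mul_le_mul_of_nonneg_right hpi h7
    linarith
  have h9 : 2 * (2 * Real.pi) * (W * ‖∑ i, (fr 0 k i : ℂ) * U i k‖)
      ≤ 2 * (2 * Real.pi) * ((2 * n + 1) * X * (N * (c * ε * A))) := by
    refine h3.trans ?_
    have h10 : 2 * (2 * Real.pi) * ((2 * n + 1) * X * (N * (c * ε * A)))
        = 2 * Real.pi * (n * X * (2 * (N * (c * ε * A))))
          + 2 * (2 * Real.pi) * ((n + 1) * X * (N * (c * ε * A))) := by ring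
    rw [h10]
    linarith
  have h10 := le_of_mul_le_mul_left h9 (by positivity)
  refine h10.trans ?_
  have h11 : c * (N * (2 * n + 1) + 1) * ε * A * X
      = (2 * n + 1) * X * (N * (c * ε * A)) + c * ε * A * X := by ring
  rw [h11]
  have : 0 ≤ c * ε * A * X := by positivity
  linarith

end Vale.Agent.P088.LR.U.H599
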