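import Vale.Agent.P088.H599.J.Abs4

/-!
# P088, row U_ABS, part 5: linear algebra and all frequencies
-/

open MeasureTheory Set
open scoped ContDiff Matrix

noncomputable section

namespace Vale.Agent.P088.LR.U.H599

open Vale.Agent.P088.LR.CF Vale.Agent.P088.LR.CF.H599 Vale.Agent.P088.LR.U H158

variable {n N : ℕ}

lemma nr_ne_zero {u : V n} {j : Fin n} (h : u j ≠ 0) : nr u ≠ 0 := by
  intro h0
  have h1 := abs_le_nr u j
  rw [h0] at h1
  exact h (abs_eq_zero.1 (le_antisymm h1 (abs_nonneg _)))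

lemma unit_of {u ξ : V n} (h : nr u ≠ 0) (ho : ∑ j, u j * ξ j = 0) :
    nr ((nr u)⁻¹ • u) = 1 ∧ ∑ j, ((nr u)⁻¹ • u) j * ξ j = 0 := by
  have hpos : 0 < nr u := lt_of_le_of_ne (nr_nonneg u) (Ne.symm h)
  refine ⟨by rw [nr_smul, abs_of_pos (inv_pos.2 hpos), inv_mul_cancel₀ h], ?_⟩
  have : ∑ j, ((nr u)⁻¹ • u) j * ξ j = (nr u)⁻¹ * ∑ j, u j * ξ j := by
    rw [Finset.mul_sum]
    exact Finset.sum_congr rfl fun j _ => by
      simp only [Pi.smul_apply, smul_eq_mul]; ring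
  rw [this, ho, mul_zero]

/-- A unit vector orthogonal to `ξ`. -/
lemma exists_unit (hn : 2 ≤ n) (ξ : V n) : ∃ v : V n, nr v = 1 ∧ ∑ j, v j * ξ j = 0 := by
  set i₀ : Fin n := ⟨0, by omega⟩ with hi₀
  set i₁ : Fin n := ⟨1, by omega⟩ with hi₁
  have hne : i₀ ≠ i₁ := by
    intro h
    have := congrArg Fin.val h
    simp [hi₀, hi₁] at this
  by_cases h0 : ξ i₀ = 0
  · refine ⟨_, unit_of (u := Pi.single i₀ 1) (nr_ne_zero (j := i₀) (by simp)) ?_⟩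
    rw [Finset.sum_eq_single i₀]
    · rw [h0, mul_zero]
    · intro j _ hj
      rw [Pi.single_eq_of_ne hj, zero_mul]
    · intro h
      exact absurd (Finset.mem_univ i₀) h
  · refine ⟨_, unit_of (u := Pi.single i₀ (ξ i₁) + Pi.single i₁ (-ξ i₀))
      (nr_ne_zero (j := i₁) ?_) ?_⟩
    · rw [Pi.add_apply, Pi.single_eq_of_ne hne.symm, Pi.single_eq_same, zero_add]
      exact neg_ne_zero.2 h0
    · have h : ∀ j, (Pi.single i₀ (ξ i₁) + Pi.single i₁ (-ξ i₀) : V n) j * ξ j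
          = (if j = i₀ then ξ i₁ * ξ j else 0) + (if j = i₁ then -ξ i₀ * ξ j else 0) := by
        intro j
        simp only [Pi.add_apply, Pi.single_apply]
        split_ifs <;> ring
      simp only [h, Finset.sum_add_distrib, Finset.sum_ite_eq', Finset.mem_univ, if_true]
      ring

lemma bR_le {H : Fin n → Fin n → ℂ} {μ : ℝ} (hm : ∀ i j, ‖H i j‖ ≤ μ) (u v : V n) :
    ‖bR H u v‖ ≤ (∑ i, |u i|) * (∑ j, |v j|) * μ := by
  unfold bR
  calc ‖∑ i, ∑ j, (u i : ℂ) * v j * H i j‖ ≤ ∑ i, ∑ j, |u i| * |v j| * μ := by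
        refine (norm_sum_le _ _).trans (Finset.sum_le_sum fun i _ => ?_)
        refine (norm_sum_le _ _).trans (Finset.sum_le_sum fun j _ => ?_)
        rw [norm_mul, norm_mul, Complex.norm_real, Complex.norm_real, Real.norm_eq_abs,
          Real.norm_eq_abs]
        exact mul_le_mul_of_nonneg_left (hm i j) (by positivity)
    _ = (∑ i, |u i|) * (∑ j, |v j|) * μ := by
        rw [Finset.sum_mul_sum, Finset.sum_mul]
        exact Finset.sum_congr rfl fun i _ => by rw [Finset.sum_mul]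

/-- The scalar part. -/
lemma diag_bound {m : Fin n → Fin n → ℂ} {b : ℂ} {ξ v : V n} (hX : 1 ≤ nr ξ) (hv : nr v = 1)
    {Y μ : ℝ} (hμ : 0 ≤ μ)
    (hY : ‖((nr ξ : ℝ) : ℂ) ^ 2 * bR (fun i j => m i j + if i = j then b else 0) v v
      + bR (fun i j => m i j + if i = j then b else 0) ξ ξ‖ ≤ nr ξ ^ 2 * Y)
    (hm : ∀ i j, ‖m i j‖ ≤ μ) : ‖b‖ ≤ Y + n ^ 2 * μ := by
  set X := nr ξ with hXd
  have hX0 : 0 < X := by linarith
  have hn0 : (0 : ℝ) ≤ n := Nat.cast_nonneg n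
  have hdec : ∀ u : V n, bR (fun i j => m i j + if i = j then b else 0) u u
      = bR m u u + ((nr u : ℝ) : ℂ) ^ 2 * b := by
    intro u
    unfold bR
    have h1 : ∀ i, ∑ j, (u i : ℂ) * u j * (m i j + if i = j then b else 0)
        = ∑ j, (u i : ℂ) * u j * m i j + (u i : ℂ) ^ 2 * b := by
      intro i
      simp only [mul_add, Finset.sum_add_distrib, mul_ite, mul_zero, Finset.sum_ite_eq,
        Finset.mem_univ, if_true]
      ring
    simp only [h1, Finset.sum_add_distrib]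
    rw [← Finset.sum_mul, ← Complex.ofReal_pow, nr_sq]
    push_cast
    rfl
  rw [hdec v, hdec ξ, hv, ← hXd] at hY
  have h1 : (2 : ℂ) * ((X : ℝ) : ℂ) ^ 2 * b
      = (((X : ℝ) : ℂ) ^ 2 * (bR m v v + (((1 : ℝ) : ℝ) : ℂ) ^ 2 * b)
        + (bR m ξ ξ + ((X : ℝ) : ℂ) ^ 2 * b)) - (((X : ℝ) : ℂ) ^ 2 * bR m v v + bR m ξ ξ) := by
    push_cast
    ring
  have h2 : ‖(2 : ℂ) * ((X : ℝ) : ℂ) ^ 2 * b‖ = 2 * X ^ 2 * ‖b‖ := by
    rw [norm_mul, norm_mul, norm_pow, Complex.norm_real, Real.norm_eq_abs, abs_of_pos hX0]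
    simp
  have h3 : ‖((X : ℝ) : ℂ) ^ 2 * bR m v v + bR m ξ ξ‖ ≤ X ^ 2 * (2 * (n ^ 2 * μ)) := by
    have h4 : ‖bR m v v‖ ≤ n ^ 2 * μ := by
      refine (bR_le hm v v).trans ?_
      have h5 := sum_abs_le v
      rw [hv, mul_one] at h5
      have h6 : (0 : ℝ) ≤ ∑ i, |v i| := Finset.sum_nonneg fun _ _ => abs_nonneg _
      rw [sq]
      gcongr
    have h4' : ‖bR m ξ ξ‖ ≤ X ^ 2 * (n ^ 2 * μ) := by
      refine (bR_le hm ξ ξ).trans ?_
      have h5 := sum_abs_le ξ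
      have h6 : (0 : ℝ) ≤ ∑ i, |ξ i| := Finset.sum_nonneg fun _ _ => abs_nonneg _
      calc (∑ i, |ξ i|) * (∑ j, |ξ j|) * μ ≤ (n * X) * (n * X) * μ := by gcongr
        _ = X ^ 2 * (n ^ 2 * μ) := by ring
    calc ‖((X : ℝ) : ℂ) ^ 2 * bR m v v + bR m ξ ξ‖ ≤ X ^ 2 * ‖bR m v v‖ + ‖bR m ξ ξ‖ := by
          refine (norm_add_le _ _).trans ?_
          rw [norm_mul, norm_pow, Complex.norm_real, Real.norm_eq_abs, abs_of_pos hX0]
      _ ≤ X ^ 2 * (n ^ 2 * μ) + X ^ 2 * (n ^ 2 * μ) :=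
          add_le_add (mul_le_mul_of_nonneg_left h4 (sq_nonneg _)) h4'
      _ = _ := by ring
  have h5 : 2 * X ^ 2 * ‖b‖ ≤ X ^ 2 * Y + X ^ 2 * (2 * (n ^ 2 * μ)) := by
    rw [← h2, h1]
    exact (norm_sub_le _ _).trans (add_le_add hY h3)
  have h6 : 0 ≤ Y := by
    have h7 : 0 ≤ X ^ 2 * Y := (norm_nonneg _).trans hY
    by_contra hc
    push Not at hc
    have : X ^ 2 * Y < 0 := mul_neg_of_pos_of_neg (by positivity) hc
    linarith
  have h7 : X ^ 2 * ‖b‖ ≤ X ^ 2 * (Y + n ^ 2 * μ) := by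
    have h8 : 0 ≤ X ^ 2 * Y := by positivity
    linarith
  exact le_of_mul_le_mul_left h7 (by positivity)

/-- The vector part. -/
lemma vec_bound {Q : Fin n → ℂ} {ξ : V n} (h1 : 1 ≤ nr ξ) (hd : ∑ i, (ξ i : ℂ) * Q i = 0)
    {B : ℝ} (hB : 0 ≤ B)
    (hq : ∀ v : V n, nr v = 1 → ∑ j, v j * ξ j = 0 → ‖∑ i, (v i : ℂ) * Q i‖ ≤ B) (j : Fin n) :
    ‖Q j‖ ≤ B := by
  have hX : nr ξ ≠ 0 := by linarith
  have h2 : Q j = ∑ i, (pa ξ j i : ℂ) * Q i := by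
    have h3 : ∀ i, (pa ξ j i : ℂ) * Q i
        = (if i = j then Q i else 0) + ((-(ξ j / nr ξ ^ 2) : ℝ) : ℂ) * ((ξ i : ℂ) * Q i) := by
      intro i
      simp only [pa, Pi.add_apply, Pi.smul_apply, smul_eq_mul, Pi.single_apply]
      split_ifs <;> (push_cast; ring)
    simp only [h3, Finset.sum_add_distrib, ← Finset.mul_sum, hd, mul_zero, add_zero,
      Finset.sum_ite_eq', Finset.mem_univ, if_true]
  rw [h2]
  by_cases h0 : nr (pa ξ j) = 0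
  · have h3 : ∀ i, pa ξ j i = 0 := fun i => by
      by_contra hc
      exact nr_ne_zero hc h0
    simp only [h3, Complex.ofReal_zero, zero_mul, Finset.sum_const_zero, norm_zero]
    exact hB
  · obtain ⟨u1, u2⟩ := unit_of h0 (pa_orth hX j)
    have h3 := hq _ u1 u2
    have h4 : ∑ i, (pa ξ j i : ℂ) * Q i
        = ((nr (pa ξ j) : ℝ) : ℂ) * ∑ i, ((((nr (pa ξ j))⁻¹ • pa ξ j) i : ℝ) : ℂ) * Q i := by
      rw [Finset.mul_sum]
      refine Finset.sum_congr rfl fun i _ => ?_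
      have h5 : ((nr (pa ξ j) : ℝ) : ℂ) ≠ 0 := by exact_mod_cast h0
      simp only [Pi.smul_apply, smul_eq_mul]
      push_cast
      field_simp
    have h5 : nr (pa ξ j) ≤ 1 := by
      have h6 := pa_sq hX j
      rw [← nr_sq] at h6
      exact (sq_le_one_iff₀ (nr_nonneg _)).1 h6
    rw [h4, norm_mul, Complex.norm_real, Real.norm_eq_abs, abs_of_nonneg (nr_nonneg _)]
    calc nr (pa ξ j) * ‖∑ i, ((((nr (pa ξ j))⁻¹ • pa ξ j) i : ℝ) : ℂ) * Q i‖ ≤ 1 * B :=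
          mul_le_mul h5 h3 (norm_nonneg _) zero_le_one
      _ = B := one_mul _

/-- From the nonzero frequencies to all. -/
lemma all_bd (hA3 : RowA3) (hn : 1 ≤ n) {P : ℕ} (hP : n + 1 ≤ P) {f : V n → ℂ} (hf : Sb f)
    {B : ℝ} (hB : ∀ k : Ix n, k ≠ 0 → wt k ^ P * ‖cf 0 f k‖ ≤ B) (hB0 : 0 ≤ B) :
    Bd P ((1 + ∑' k : Ix n, (wt k ^ (n + 1))⁻¹) * B) f := by
  have hS : 0 ≤ ∑' k : Ix n, (wt k ^ (n + 1))⁻¹ :=
    tsum_nonneg fun k => inv_nonneg.2 (pow_nonneg (H501.wt_pos k).le _)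
  intro k
  rcases eq_or_ne k 0 with hk | hk
  · have h6 : wt (0 : Ix n) = 1 := by simp [wt]
    rw [hk, h6, one_pow, one_mul]
    refine (zero_bd hA3 hn hP hf hB hB0).trans ?_
    rw [add_mul, one_mul]
    linarith
  · refine (hB k hk).trans ?_
    rw [add_mul, one_mul]
    have := mul_nonneg hS hB0
    linarith

/-- High frequencies. -/
lemma high_bd {f : V n → ℂ} (hr : RD (cf 0 f)) {ε : ℝ} (hε : nm (2 * n + 5) (cf 0 f) ≤ ε) {P : ℕ}
    (hP : P ≤ n + 2) {t : ℝ} (ht : 1 ≤ t) {k : Ix n} (hk : t ≤ wt k) :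
    wt k ^ P * ‖cf 0 f k‖ ≤ (t ^ (n + 3))⁻¹ * ε := by
  have htP : 0 < t ^ (n + 3) := by positivity
  rw [← div_eq_inv_mul, le_div_iff₀ htP, mul_comm]
  calc t ^ (n + 3) * (wt k ^ P * ‖cf 0 f k‖) ≤ wt k ^ (n + 3) * (wt k ^ P * ‖cf 0 f k‖) := by
        refine mul_le_mul_of_nonneg_right ?_ (mul_nonneg (pow_nonneg (H501.wt_pos k).le _)
          (norm_nonneg _))
        exact pow_le_pow_left₀ (by positivity) hk _
    _ = wt k ^ (n + 3 + P) * ‖cf 0 f k‖ := by rw [← mul_assoc, ← pow_add]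
    _ ≤ nm (n + 3 + P) (cf 0 f) := term_le_nm hr _ k
    _ ≤ nm (2 * n + 5) (cf 0 f) := nm_mono hr (by omega)
    _ ≤ ε := hε

lemma Bd.smul {P : ℕ} {B : ℝ} {f : V n → ℂ} (h : Bd P B f) {c : ℂ} (hc : ‖c‖ ≤ 1) :
    Bd P B fun x => c * f x := by
  intro k
  rw [cf_smul, norm_mul]
  have hw : 0 ≤ wt k ^ P := pow_nonneg (H501.wt_pos k).le _
  calc wt k ^ P * (‖c‖ * ‖cf 0 f k‖) ≤ wt k ^ P * (1 * ‖cf 0 f k‖) := by gcongr
    _ = wt k ^ P * ‖cf 0 f k‖ := by ring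
    _ ≤ B := h k

lemma Sb.smul {f : V n → ℂ} (h : Sb f) (c : ℂ) : Sb fun x => c * f x :=
  h.mul' contDiff_const

end Vale.Agent.P088.LR.U.H599
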