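import Vale.Agent.P088.H599.J.Abs5

/-!
# P088, row U_ABS, part 6: one step of the absorption
-/

open MeasureTheory Set
open scoped ContDiff Matrix

noncomputable section

namespace Vale.Agent.P088.LR.U.H599

open Vale.Agent.P088.LR.CF Vale.Agent.P088.LR.CF.H599 Vale.Agent.P088.LR.U H158

variable {n N : ℕ}

/-- The weighted sum of the weights. -/
def Sn (n : ℕ) : ℝ := 1 + ∑' k : Ix n, (wt k ^ (n + 1))⁻¹

lemma one_le_Sn : 1 ≤ Sn n := by
  have hS : 0 ≤ ∑' k : Ix n, (wt k ^ (n + 1))⁻¹ :=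
    tsum_nonneg fun k => inv_nonneg.2 (pow_nonneg (H501.wt_pos k).le _)
  unfold Sn
  linarith

/-- The rest `m_ij = h_ij - δ_ij B`. -/
def mF (h : Fin n → Fin n → MC n N) (P : MC n N) (i j : Fin n) (α β : Fin N) : V n → ℂ := fun x =>
  ((N : ℂ)⁻¹) * (((-1) * (∑ γ, h i j x α β * (P x - 1) γ γ)
    + (1 : Matrix (Fin N) (Fin N) ℂ) α β * ∑ γ, h i j x γ γ)
    + (∑ γ, h i j x γ γ) * (P x - 1) α β)

/-- The scalar part. -/
def bF (σ : V n → ℝ) (P₁ P : MC n N) (α β : Fin N) : V n → ℂ := fun x =>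
  ((N : ℂ)⁻¹) * ((σ x : ℂ) * ((∑ γ, P₁ x γ γ) * P x α β - (∑ γ, P x γ γ) * P₁ x α β))

/-- The decomposition of `h`. -/
lemma dec_h (hN : 1 ≤ N) {h : Fin n → Fin n → MC n N} {τ : MC n N} {σ : V n → ℝ} {s : MF n}
    {P₁ P : MC n N} (e1 : ∀ x, τ x = (σ x : ℂ) • P₁ x)
    (e2 : ∀ i j x, dg τ i j x + h i j x = (s x i j : ℂ) • P x) (i j : Fin n) (α β : Fin N)
    (x : V n) : h i j x α β = mF h P i j α β x + if i = j then bF σ P₁ P α β x else 0 := by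
  have hN0 : (N : ℂ) ≠ 0 := by
    have : N ≠ 0 := by omega
    exact_mod_cast this
  have hh : ∀ α β, h i j x α β = (s x i j : ℂ) * P x α β
      - (if i = j then (σ x : ℂ) * P₁ x α β else 0) := by
    intro α β
    have h1 := congrFun (congrFun (e2 i j x) α) β
    rw [Matrix.add_apply, Matrix.smul_apply, smul_eq_mul] at h1
    have h2 : dg τ i j x α β = if i = j then (σ x : ℂ) * P₁ x α β else 0 := by
      unfold dg
      split_ifs with h3
      · rw [e1, Matrix.smul_apply, smul_eq_mul]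
      · rfl
    rw [← h1, h2]
    ring
  have h1 : ∑ γ, (P x - 1) γ γ = ∑ γ, P x γ γ - N := by
    simp only [Matrix.sub_apply, Matrix.one_apply_eq, Finset.sum_sub_distrib]
    simp
  have ht : ∑ γ, h i j x γ γ = (s x i j : ℂ) * ∑ γ, P x γ γ
      - (if i = j then (σ x : ℂ) * ∑ γ, P₁ x γ γ else 0) := by
    simp only [hh]
    rw [Finset.sum_sub_distrib, ← Finset.mul_sum]
    congr 1
    split_ifs with h3
    · rw [Finset.mul_sum]
    · simp
  unfold mF bF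
  rw [← Finset.mul_sum, h1, ht, Matrix.sub_apply]
  set p := ∑ γ, P x γ γ
  set p₁ := ∑ γ, P₁ x γ γ
  have h4 := hh α β
  split_ifs with h3
  · rw [if_pos h3] at h4
    field_simp
    rw [h4]
    ring
  · rw [if_neg h3] at h4
    field_simp
    rw [h4]
    ring

/-- The statement of row U_ROT for fixed constants. -/
def ES2B (n N M : ℕ) (C : ℝ) : Prop := ∀ (Ω : Set (V n))
  (τ τi : MC n N) (κ : Fin n → MC n N) (h : Fin n → Fin n → MC n N) (q : Fin n → MC n N),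
  BkU Ω τ τi κ h q → ∀ a b : ℝ, ClC M b (fun x => τ x - 1) → ClC M b (fun x => τi x - 1) →
  (∀ i, ClC M b (κ i)) → C * b ≤ 1 →
  (∀ i j α β, ∀ k : Ix n, wt k ^ (n + 2) * ‖ft (fun x => h i j x α β) (fr 0 k)‖ ≤ a) →
  (∀ i α β, ∀ k : Ix n, wt k ^ (n + 1) * ‖ft (fun x => q i x α β) (fr 0 k)‖ ≤ a) →
  ∀ ξ v : V n, nr v = 1 → ∑ j, v j * ξ j = 0 → 1 ≤ nr ξ → C * nr ξ * a ≤ 1 → ∀ α β : Fin N,
  wr ξ ^ (n + 2) * ‖((nr ξ : ℝ) : ℂ) ^ 2 *
        (∑ i, ∑ j, (v i : ℂ) * v j * ft (fun x => h i j x α β) ξ)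
      + ∑ i, ∑ j, (ξ i : ℂ) * ξ j * ft (fun x => h i j x α β) ξ‖
    ≤ C * nr ξ ^ 2 * (b * a) + C * nr ξ ^ 3 * a ^ 2 * wr ξ ^ (n + 2) ∧
  wr ξ ^ (n + 2) * (nr ξ * ‖∑ i, (v i : ℂ) * ft (fun x => q i x α β) ξ‖)
    ≤ C * nr ξ ^ 2 * (b * a) + C * nr ξ ^ 3 * a ^ 2 * wr ξ ^ (n + 2)

lemma bls_sub_bal : bls n ⊆ bal n := by
  intro x hx
  have h1 : ∑ j, (x j - 1 / 2) ^ 2 ≤ 1 / 64 := hx
  show ∑ j, (x j - 1 / 2) ^ 2 ≤ 1 / 16
  linarith

/-- All the data. -/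
structure AD (M : ℕ) (ε : ℝ) (Ω : Set (V n)) (τ τi : MC n N) (κ : Fin n → MC n N)
    (h : Fin n → Fin n → MC n N) (q : Fin n → MC n N) (σ : V n → ℝ) (s : MF n) (P₁ P : MC n N)
    (G : Fin n → Fin n → MC n N) (D : Fin n → MC n N) : Prop where
  bk : BkU Ω τ τi κ h q
  cτ : ClC (M + (n + 2 + n + 1)) ε (fun x => τ x - 1)
  ci : ClC (M + (n + 2 + n + 1)) ε (fun x => τi x - 1)
  cκ : ∀ i, ClC (M + (n + 2 + n + 1)) ε (κ i)
  sσ : ContDiff ℝ ∞ σ
  sP₁ : SmC P₁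
  sP : SmC P
  hP₁ : ∀ x, (P₁ x)ᴴ = P₁ x
  hP : ∀ x, (P x)ᴴ = P x
  e1 : ∀ x, τ x = (σ x : ℂ) • P₁ x
  e2 : ∀ i j x, dg τ i j x + h i j x = (s x i j : ℂ) • P x
  cP : ClC (M + (n + 2 + n + 1)) ε (fun x => P x - 1)
  hq : ∀ i x, (q i x)ᴴ = -q i x
  sG : ∀ a i, SmC (G a i)
  cG : ∀ a i, ClC (M + (n + 2 + n + 1)) ε (G a i)
  sD : ∀ a, SmC (D a)
  D0 : ∀ a, ∀ x ∉ Ω, D a x = 0
  tD : ∀ a x, ((D a x).trace).re = 0
  eq : ∀ a x, ∑ i, pdm i (fun y => (∑ j, h i j y * ((if j = a then 1 else 0) + G a j y)) +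
      τ y * pdm i (D a) y) x + ∑ i, q i x * ((if i = a then 1 else 0) + G a i x) +
      ∑ i, κ i x * pdm i (D a) x = 0
  nh : ∀ i j α β, nm (2 * n + 5) (cf 0 (fun x => h i j x α β)) ≤ ε
  nq : ∀ i α β, nm (2 * n + 5) (cf 0 (fun x => q i x α β)) ≤ ε

variable {M : ℕ} {ε : ℝ} {Ω : Set (V n)} {τ τi : MC n N} {κ : Fin n → MC n N}
    {h : Fin n → Fin n → MC n N} {q : Fin n → MC n N} {σ : V n → ℝ} {s : MF n} {P₁ P : MC n N}
    {G : Fin n → Fin n → MC n N} {D : Fin n → MC n N}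

lemma AD.off (H : AD M ε Ω τ τi κ h q σ s P₁ P G D) {x : V n} (hx : x ∉ bal n) : x ∉ Ω :=
  fun h => hx (bls_sub_bal (H.bk.sub h))

lemma AD.gd (H : AD M ε Ω τ τi κ h q σ s P₁ P G D) : GDat h q G D τ κ where
  sh i j α β := ⟨H.bk.sh i j α β, fun x hx => by rw [H.bk.h0 i j x (H.off hx)]; rfl⟩
  sq i α β := ⟨H.bk.sq i α β, fun x hx => by rw [H.bk.q0 i x (H.off hx)]; rfl⟩
  sD a α β := ⟨H.sD a α β, fun x hx => by rw [H.D0 a x (H.off hx)]; rfl⟩
  sG := H.sG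
  sτ := H.bk.sτ
  sκ := H.bk.sκ
  eq := H.eq

lemma AD.rh (H : AD M ε Ω τ τi κ h q σ s P₁ P G D) (i j : Fin n) (x : V n) :
    star (∑ α, h i j x α α) = ∑ α, h i j x α α := by
  rw [star_sum]
  refine Finset.sum_congr rfl fun α _ => ?_
  have h1 := congrFun (congrFun (H.e2 i j x) α) α
  rw [Matrix.add_apply, Matrix.smul_apply, smul_eq_mul] at h1
  have h2 : dg τ i j x α α = if i = j then (σ x : ℂ) * P₁ x α α else 0 := by
    unfold dg
    split_ifs with h3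
    · rw [H.e1, Matrix.smul_apply, smul_eq_mul]
    · rfl
  have h3 : star (P x α α) = P x α α := by
    have := congrFun (congrFun (H.hP x) α) α
    rwa [Matrix.conjTranspose_apply] at this
  have h4 : star (P₁ x α α) = P₁ x α α := by
    have := congrFun (congrFun (H.hP₁ x) α) α
    rwa [Matrix.conjTranspose_apply] at this
  have h5 : h i j x α α = (s x i j : ℂ) * P x α α
      - (if i = j then (σ x : ℂ) * P₁ x α α else 0) := by
    rw [← h1, h2]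
    ring
  have hr : ∀ r : ℝ, star (r : ℂ) = r := fun r => Complex.conj_ofReal r
  rw [h5, star_sub, star_mul', h3, hr]
  congr 1
  split_ifs
  · rw [star_mul', h4, hr]
  · exact star_zero _

lemma AD.rq (H : AD M ε Ω τ τi κ h q σ s P₁ P G D) (i : Fin n) (x : V n) :
    star (∑ α, q i x α α) = -∑ α, q i x α α := by
  rw [star_sum, ← Finset.sum_neg_distrib]
  refine Finset.sum_congr rfl fun α _ => ?_
  have := congrFun (congrFun (H.hq i x) α) α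
  rwa [Matrix.conjTranspose_apply, Matrix.neg_apply] at this

lemma AD.rD (H : AD M ε Ω τ τi κ h q σ s P₁ P G D) (a : Fin n) (x : V n) :
    star (∑ α, D a x α α) = -∑ α, D a x α α := by
  have h1 : (∑ α, D a x α α).re = 0 := H.tD a x
  refine Complex.ext ?_ ?_
  · rw [Complex.star_def, Complex.conj_re, Complex.neg_re, h1, neg_zero]
  · rw [Complex.star_def, Complex.conj_im, Complex.neg_im]

lemma AD.sT (H : AD M ε Ω τ τi κ h q σ s P₁ P G D) (i j : Fin n) :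
    Sb fun x => ∑ γ, h i j x γ γ := Sb.sum fun γ => H.gd.sh i j γ γ

lemma AD.sm1 (H : AD M ε Ω τ τi κ h q σ s P₁ P G D) (α γ : Fin N) :
    ContDiff ℝ ∞ fun y => (P y - 1) α γ := by
  simp only [Matrix.sub_apply]
  exact (H.sP α γ).sub contDiff_const

lemma AD.smF (H : AD M ε Ω τ τi κ h q σ s P₁ P G D) (i j : Fin n) (α β : Fin N) :
    Sb (mF h P i j α β) := by
  unfold mF
  exact Sb.smul (Sb.add (Sb.add (Sb.smul (Sb.sum fun γ => (H.gd.sh i j α β).mul (H.sm1 γ γ)) _)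
    (Sb.smul (H.sT i j) _)) ((H.sT i j).mul (H.sm1 α β))) _

lemma AD.sbF (H : AD M ε Ω τ τi κ h q σ s P₁ P G D) (hn : 1 ≤ n) (hN : 1 ≤ N) (α β : Fin N) :
    Sb (bF σ P₁ P α β) := by
  refine ⟨?_, fun x hx => ?_⟩
  · unfold bF
    have h1 : ContDiff ℝ ∞ fun x => (σ x : ℂ) := Complex.ofRealCLM.contDiff.comp H.sσ
    exact contDiff_const.mul (h1.mul (((ContDiff.sum fun γ _ => H.sP₁ γ γ).mul (H.sP α β)).sub
      ((ContDiff.sum fun γ _ => H.sP γ γ).mul (H.sP₁ α β))))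
  · have h1 := dec_h hN H.e1 H.e2 ⟨0, hn⟩ ⟨0, hn⟩ α β x
    rw [if_pos rfl, (H.gd.sh _ _ α β).z x hx, (H.smF _ _ α β).z x hx, zero_add] at h1
    exact h1.symm

lemma AD.cf_h (H : AD M ε Ω τ τi κ h q σ s P₁ P G D) (hn : 1 ≤ n) (hN : 1 ≤ N) (i j : Fin n)
    (α β : Fin N) (k : Ix n) : cf 0 (fun x => h i j x α β) k = cf 0 (mF h P i j α β) k
      + if i = j then cf 0 (bF σ P₁ P α β) k else 0 := by
  have h1 : (fun x => h i j x α β) = fun x => mF h P i j α β x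
      + if i = j then bF σ P₁ P α β x else 0 := funext fun x => dec_h hN H.e1 H.e2 i j α β x
  rw [h1]
  split_ifs with h2
  · rw [cf_add (H.smF i j α β) (H.sbF hn hN α β)]
  · simp only [add_zero]

lemma AD.dq (H : AD M ε Ω τ τi κ h q σ s P₁ P G D) (α β : Fin N) (k : Ix n) :
    ∑ i, (fr 0 k i : ℂ) * cf 0 (fun x => q i x α β) k = 0 := by
  have h1 : cf 0 (fun x => ∑ i, pd i (fun y => q i y α β) x) k = 0 := by
    have h2 : (fun x => ∑ i, pd i (fun y => q i y α β) x) = fun _ => (0 : ℂ) := by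
      funext x
      have h3 := congrFun (congrFun (H.bk.dq x) α) β
      rw [Matrix.sum_apply] at h3
      exact h3
    rw [h2]
    unfold cf ft
    simp
  rw [cf_sum fun i => (H.gd.sq i α β).pd i] at h1
  have h2 : ∑ i, cf 0 (pd i fun y => q i y α β) k
      = 2 * Real.pi * Complex.I * ∑ i, (fr 0 k i : ℂ) * cf 0 (fun x => q i x α β) k := by
    rw [Finset.mul_sum]
    refine Finset.sum_congr rfl fun i _ => ?_
    rw [cf_pd (H.gd.sq i α β)]
    ring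
  rw [h2] at h1
  have h3 : (2 : ℂ) * Real.pi * Complex.I ≠ 0 := Complex.two_pi_I_ne_zero
  exact (mul_eq_zero.1 h1).resolve_left h3

end Vale.Agent.P088.LR.U.H599
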