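import Vale.Agent.P088.H599.J.Abs6

/-!
# P088, row U_ABS, part 7: the absorption
-/

open MeasureTheory Set
open scoped ContDiff Matrix

noncomputable section

namespace Vale.Agent.P088.LR.U.H599

open Vale.Agent.P088.LR.CF Vale.Agent.P088.LR.CF.H599 Vale.Agent.P088.LR.U H158

variable {n N : ℕ} {M : ℕ} {ε : ℝ} {Ω : Set (V n)} {τ τi : MC n N} {κ : Fin n → MC n N}
    {h : Fin n → Fin n → MC n N} {q : Fin n → MC n N} {σ : V n → ℝ} {s : MF n} {P₁ P : MC n N}
    {G : Fin n → Fin n → MC n N} {D : Fin n → MC n N}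

lemma clC_mono {k m : ℕ} {ε : ℝ} {P : MC n N} (h : ClC m ε P) (hk : k ≤ m) : ClC k ε P :=
  fun a b l hl x => h a b l (hl.trans hk) x

/-- The estimates at one low frequency. -/
lemma AD.low (H : AD M ε Ω τ τi κ h q σ s P₁ P G D) {C : ℝ} (hC0 : 0 < C) (hC : ES2B n N M C)
    (hCε : C * ε ≤ 1) {a : ℝ} (ha : 0 ≤ a)
    (bh : ∀ i j α β, Bd (n + 2) a fun x => h i j x α β)
    (bq : ∀ i α β, Bd (n + 1) a fun x => q i x α β) {t : ℝ} (ht : 1 ≤ t)
    (hta : C * t ^ (n + 3) * a ≤ 1) {k : Ix n} (hk : k ≠ 0) (hkt : wt k ≤ t)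
    {v : V n} (hv : nr v = 1) (hvo : ∑ j, v j * fr 0 k j = 0) (α β : Fin N) :
    ‖((nr (fr 0 k) : ℝ) : ℂ) ^ 2 * bR (fun i j => cf 0 (fun x => h i j x α β) k) v v
      + bR (fun i j => cf 0 (fun x => h i j x α β) k) (fr 0 k) (fr 0 k)‖
      ≤ nr (fr 0 k) ^ 2 * ((C * ε * a + C * t ^ (n + 3) * a ^ 2) / wt k ^ (n + 2)) ∧
    ‖∑ i, (v i : ℂ) * cf 0 (fun x => q i x α β) k‖
      ≤ nr (fr 0 k) * ((C * ε * a + C * t ^ (n + 3) * a ^ 2) / wt k ^ (n + 2)) := by
  set X : ℝ := nr (fr 0 k) with hX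
  have hX1 : 1 ≤ X := one_le_nr_fr hk
  have hX0 : 0 < X := by linarith
  have hXw : X ≤ wt k := nr_fr_le k
  have hwp : 0 < wt k := H501.wt_pos k
  set W : ℝ := wt k ^ (n + 2) with hW
  have hWp : 0 < W := pow_pos hwp _
  have htt : t ≤ t ^ (n + 3) := le_self_pow₀ ht (by omega)
  have hcond : C * X * a ≤ 1 := by
    have h8 : C * X * a ≤ C * t ^ (n + 3) * a :=
      mul_le_mul_of_nonneg_right (mul_le_mul_of_nonneg_left (by linarith) hC0.le) ha
    linarith
  obtain ⟨r1, r2⟩ := hC Ω τ τi κ h q H.bk a ε (clC_mono H.cτ (by omega)) (clC_mono H.ci (by omega))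
    (fun i => clC_mono (H.cκ i) (by omega)) hCε (fun i j α β k => bh i j α β k)
    (fun i α β k => bq i α β k) (fr 0 k) v hv hvo hX1 hcond α β
  rw [wr_fr, ← hW, ← hX] at r1 r2
  have hE : C * X ^ 2 * (ε * a) + C * X ^ 3 * a ^ 2 * W
      ≤ X ^ 2 * (C * ε * a + C * t ^ (n + 3) * a ^ 2) := by
    have h1 : X * W ≤ t ^ (n + 3) := by
      calc X * W ≤ wt k * W := mul_le_mul_of_nonneg_right hXw hWp.le
        _ = wt k ^ (n + 3) := by rw [hW]; ring
        _ ≤ t ^ (n + 3) := pow_le_pow_left₀ hwp.le hkt _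
    have h2 : C * X ^ 3 * a ^ 2 * W = X ^ 2 * (C * (X * W) * a ^ 2) := by ring
    have h3 : C * (X * W) * a ^ 2 ≤ C * t ^ (n + 3) * a ^ 2 :=
      mul_le_mul_of_nonneg_right (mul_le_mul_of_nonneg_left h1 hC0.le) (sq_nonneg a)
    rw [h2]
    have h4 := mul_le_mul_of_nonneg_left h3 (sq_nonneg X)
    linarith
  constructor
  · rw [← mul_div_assoc, le_div_iff₀ hWp, mul_comm]
    exact r1.trans hE
  · have h1 : X * (W * ‖∑ i, (v i : ℂ) * cf 0 (fun x => q i x α β) k‖)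
        ≤ X * (X * (C * ε * a + C * t ^ (n + 3) * a ^ 2)) := by
      calc X * (W * ‖∑ i, (v i : ℂ) * cf 0 (fun x => q i x α β) k‖)
          = W * (X * ‖∑ i, (v i : ℂ) * cf 0 (fun x => q i x α β) k‖) := by ring
        _ ≤ X ^ 2 * (C * ε * a + C * t ^ (n + 3) * a ^ 2) := r2.trans hE
        _ = _ := by ring
    have h2 := le_of_mul_le_mul_left h1 hX0
    rw [← mul_div_assoc, le_div_iff₀ hWp, mul_comm]
    exact h2

/-- One step of the absorption. -/
lemma step (hA3 : RowA3) (hn : 2 ≤ n) (hN : 1 ≤ N) {M : ℕ} {C : ℝ} (hC0 : 0 < C)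
    (hC : ES2B n N M C) : ∃ R K : ℝ, 0 < R ∧ 1 ≤ K ∧ ∀ (ε : ℝ) (Ω : Set (V n)) (τ τi : MC n N)
    (κ : Fin n → MC n N) (h : Fin n → Fin n → MC n N) (q : Fin n → MC n N) (σ : V n → ℝ)
    (s : MF n) (P₁ P : MC n N) (G : Fin n → Fin n → MC n N) (D : Fin n → MC n N),
    AD M ε Ω τ τi κ h q σ s P₁ P G D → 0 ≤ ε → R * ε ≤ 1 → ∀ a, 0 ≤ a →
    (∀ i j α β, Bd (n + 2) a fun x => h i j x α β) →
    (∀ i α β, Bd (n + 1) a fun x => q i x α β) →
    ∀ t : ℝ, 1 ≤ t → C * t ^ (n + 3) * a ≤ 1 →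
    (∀ i j α β, Bd (n + 2) (R * ε * a
      + K * (C * t ^ (n + 3) * a ^ 2 + (t ^ (n + 3))⁻¹ * ε)) fun x => h i j x α β) ∧
    ∀ i α β, Bd (n + 1) (R * ε * a
      + K * (C * t ^ (n + 3) * a ^ 2 + (t ^ (n + 3))⁻¹ * ε)) fun x => q i x α β := by
  obtain ⟨cg, hcg, Hg⟩ := gauge hA3 n N
  obtain ⟨cm, hcm, Hm⟩ := mul_bd hA3 n (n + 2)
  have hS := one_le_Sn (n := n)
  set S := Sn n with hSd
  have hn0 : (0 : ℝ) ≤ n := Nat.cast_nonneg n
  have hn1 : 1 ≤ n := by omega
  have hNr : (1 : ℝ) ≤ N := by exact_mod_cast hN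
  have hS0 : 0 < S := by linarith
  set r₁ : ℝ := N * C + (2 * n + 1) * cg with hr₁
  have hr₁0 : 0 < r₁ := by positivity
  set R' : ℝ := S * ((n ^ 2 + 1) * (N * cm + 2 * S * r₁) + C) with hR'
  have hR'0 : 0 < R' := by positivity
  set K : ℝ := S * ((n ^ 2 + 1) * (2 * S * N) + 1) with hK
  have hK1 : 1 ≤ K := by
    have h1 : (1 : ℝ) ≤ (n ^ 2 + 1) * (2 * S * N) + 1 := by
      have : (0 : ℝ) ≤ (n ^ 2 + 1) * (2 * S * N) := by positivity
      linarith
    calc (1 : ℝ) = 1 * 1 := by ring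
      _ ≤ K := by rw [hK]; exact mul_le_mul hS h1 zero_le_one hS0.le
  refine ⟨R' + cg + cm + C, K, by positivity, hK1, ?_⟩
  intro ε Ω τ τi κ h q σ s P₁ P G D H hε hRε a ha bh bq t ht hta
  have hexp : (R' + cg + cm + C) * ε = R' * ε + cg * ε + cm * ε + C * ε := by ring
  have q1 : 0 ≤ R' * ε := by positivity
  have q2 : 0 ≤ cg * ε := by positivity
  have q3 : 0 ≤ cm * ε := by positivity
  have q4 : 0 ≤ C * ε := by positivity
  have hcgε : cg * ε ≤ 1 := by linarith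
  have hcmε : cm * ε ≤ 1 := by linarith
  have hCε : C * ε ≤ 1 := by linarith
  set Y : ℝ := C * t ^ (n + 3) * a ^ 2 with hY
  set Z : ℝ := (t ^ (n + 3))⁻¹ * ε with hZ
  have hY0 : 0 ≤ Y := by positivity
  have hZ0 : 0 ≤ Z := by positivity
  set E : ℝ := C * ε * a + Y with hE
  have hE0 : 0 ≤ E := by positivity
  -- the trace
  set B₁ : ℝ := N * E + (2 * n + 1) * (cg * ε * a) + N * Z with hB₁
  have hB₁0 : 0 ≤ B₁ := by positivity
  have hTlow : ∀ i j (k : Ix n), k ≠ 0 →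
      wt k ^ (n + 2) * ‖cf 0 (fun x => ∑ γ, h i j x γ γ) k‖ ≤ B₁ := by
    intro i j k hk
    have hwp : 0 < wt k := H501.wt_pos k
    have hWp : 0 < wt k ^ (n + 2) := pow_pos hwp _
    have hcT : ∀ i j, cf 0 (fun x => ∑ γ, h i j x γ γ) k = ∑ γ, cf 0 (fun x => h i j x γ γ) k :=
      fun i j => cf_sum (fun γ => H.gd.sh i j γ γ) k
    rcases le_or_gt (wt k) t with hkt | hkt
    · set X : ℝ := nr (fr 0 k) with hX
      have hX1 : 1 ≤ X := one_le_nr_fr hk
      have hX0 : 0 < X := by linarith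
      set W : ℝ := wt k ^ (n + 2) with hW
      have hg := Hg h q G D τ κ H.gd a ε ha hε hcgε (fun a i => clC_mono (H.cG a i) (by omega))
        (clC_mono H.cτ (by omega)) (fun i => clC_mono (H.cκ i) (by omega)) bh bq H.rh H.rq H.rD
      have hest := alg_bound (H := fun i j => cf 0 (fun x => ∑ γ, h i j x γ γ) k) (ξ := fr 0 k)
        (fun i j => by simp only [H.bk.sym i j]) hX1
        (B := N * (X ^ 2 * (E / W))) (G := cg * ε * a * X / W) (by positivity) ?_ ?_ i j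
      · rw [← hX] at hest
        have h9 : (N : ℝ) * (X ^ 2 * (E / W)) + (2 * n + 1) * X * (cg * ε * a * X / W)
            = X ^ 2 * ((N * E + (2 * n + 1) * (cg * ε * a)) / W) := by
          field_simp
        rw [h9] at hest
        have h10 := le_of_mul_le_mul_left hest (by positivity : (0 : ℝ) < X ^ 2)
        rw [le_div_iff₀ hWp, mul_comm] at h10
        have h11 : 0 ≤ (N : ℝ) * Z := by positivity
        rw [hB₁]
        linarith
      · intro u hu huo
        have h1 : ∀ w : V n, bR (fun i j => cf 0 (fun x => ∑ γ, h i j x γ γ) k) w w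
            = ∑ γ, bR (fun i j => cf 0 (fun x => h i j x γ γ) k) w w := by
          intro w
          unfold bR
          rw [Finset.sum_comm]
          rw [Finset.sum_comm (s := Finset.univ) (t := Finset.univ)
            (f := fun (γ : Fin N) i => ∑ j, (w i : ℂ) * w j * cf 0 (fun x => h i j x γ γ) k)]
          rw [Finset.sum_comm]
          refine Finset.sum_congr rfl fun i _ => ?_
          rw [Finset.sum_comm]
          refine Finset.sum_congr rfl fun j _ => ?_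
          simp only [hcT, Finset.mul_sum]
        rw [h1, h1, Finset.mul_sum, ← Finset.sum_add_distrib]
        refine (norm_sum_le _ _).trans ?_
        calc ∑ γ, ‖((nr (fr 0 k) : ℝ) : ℂ) ^ 2 * bR (fun i j => cf 0 (fun x => h i j x γ γ) k) u u
              + bR (fun i j => cf 0 (fun x => h i j x γ γ) k) (fr 0 k) (fr 0 k)‖
            ≤ ∑ _γ : Fin N, X ^ 2 * (E / W) := Finset.sum_le_sum fun γ _ =>
              (H.low hC0 hC hCε ha bh bq ht hta hk hkt hu huo γ γ).1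
          _ = N * (X ^ 2 * (E / W)) := by simp
      · intro b
        rw [le_div_iff₀ hWp, mul_comm]
        exact hg b k hk
    · have h1 : wt k ^ (n + 2) * ‖cf 0 (fun x => ∑ γ, h i j x γ γ) k‖ ≤ N * Z := by
        rw [hcT]
        calc wt k ^ (n + 2) * ‖∑ γ, cf 0 (fun x => h i j x γ γ) k‖
            ≤ wt k ^ (n + 2) * ∑ γ, ‖cf 0 (fun x => h i j x γ γ) k‖ :=
              mul_le_mul_of_nonneg_left (norm_sum_le _ _) hWp.le
          _ = ∑ γ, wt k ^ (n + 2) * ‖cf 0 (fun x => h i j x γ γ) k‖ := by rw [Finset.mul_sum]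
          _ ≤ ∑ _γ : Fin N, Z := Finset.sum_le_sum fun γ _ =>
              high_bd ((H.gd.sh i j γ γ).rd hA3).1 (H.nh i j γ γ) le_rfl ht hkt.le
          _ = N * Z := by simp
      have h2 : 0 ≤ (N : ℝ) * E + (2 * n + 1) * (cg * ε * a) := by positivity
      rw [hB₁]
      linarith
  have hT : ∀ i j, Bd (n + 2) (S * B₁) fun x => ∑ γ, h i j x γ γ := fun i j =>
    all_bd hA3 hn1 (by omega) (H.sT i j) (hTlow i j) hB₁0
  -- the rest
  set B₂ : ℝ := N * (cm * ε * a) + 2 * (S * B₁) with hB₂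
  have hB₂0 : 0 ≤ B₂ := by positivity
  have hm : ∀ i j α β, Bd (n + 2) B₂ (mF h P i j α β) := by
    intro i j α β
    have hcl : ∀ α β, Cl (n + 2 + n + 1) ε fun x => (P x - 1) α β := fun α β =>
      clC_mono H.cP (by omega) α β
    have b1 := Bd.sum (fun γ => Hm _ _ a ε (H.gd.sh i j α β) (bh i j α β) (H.sm1 γ γ) (hcl γ γ))
      fun γ => (H.gd.sh i j α β).mul (H.sm1 γ γ)
    have b2 := Hm _ _ (S * B₁) ε (H.sT i j) (hT i j) (H.sm1 α β) (hcl α β)
    have hone : ‖(1 : Matrix (Fin N) (Fin N) ℂ) α β‖ ≤ 1 := by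
      rw [Matrix.one_apply]
      split_ifs <;> simp
    have hNi : ‖((N : ℂ)⁻¹)‖ ≤ 1 := by
      rw [norm_inv, Complex.norm_natCast]
      exact inv_le_one_of_one_le₀ hNr
    have b3 : Bd (n + 2) _ (mF h P i j α β) :=
      Bd.smul (Bd.add (Bd.add (Bd.smul b1 (c := -1) (by simp)) (Bd.smul (hT i j) hone)
        (Sb.smul (Sb.sum fun γ => (H.gd.sh i j α β).mul (H.sm1 γ γ)) _) (Sb.smul (H.sT i j) _))
        b2 (Sb.add (Sb.smul (Sb.sum fun γ => (H.gd.sh i j α β).mul (H.sm1 γ γ)) _)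
          (Sb.smul (H.sT i j) _)) ((H.sT i j).mul (H.sm1 α β))) hNi
    refine b3.le ?_
    rw [Fintype.card_fin, hB₂]
    have h1 : cm * ε * (S * B₁) ≤ 1 * (S * B₁) :=
      mul_le_mul_of_nonneg_right hcmε (by positivity)
    linarith
  -- `h`
  obtain ⟨i₀⟩ : Nonempty (Fin n) := ⟨⟨0, hn1⟩⟩
  set B₃ : ℝ := (n ^ 2 + 1) * B₂ + E + Z with hB₃
  have hB₃0 : 0 ≤ B₃ := by positivity
  have hh : ∀ i j α β (k : Ix n), k ≠ 0 →
      wt k ^ (n + 2) * ‖cf 0 (fun x => h i j x α β) k‖ ≤ B₃ := by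
    intro i j α β k hk
    have hwp : 0 < wt k := H501.wt_pos k
    have hWp : 0 < wt k ^ (n + 2) := pow_pos hwp _
    rcases le_or_gt (wt k) t with hkt | hkt
    · set W : ℝ := wt k ^ (n + 2) with hW
      obtain ⟨v, hv, hvo⟩ := exists_unit hn (fr 0 k)
      have h1 := (H.low hC0 hC hCε ha bh bq ht hta hk hkt hv hvo α β).1
      have h2 : (fun i j => cf 0 (fun x => h i j x α β) k) = fun i j =>
          cf 0 (mF h P i j α β) k + if i = j then cf 0 (bF σ P₁ P α β) k else 0 := by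
        funext i j
        exact H.cf_h hn1 hN i j α β k
      rw [h2] at h1
      have hmk : ∀ i j, ‖cf 0 (mF h P i j α β) k‖ ≤ B₂ / W := by
        intro i j
        rw [le_div_iff₀ hWp, mul_comm]
        exact hm i j α β k
      have h3 := diag_bound (one_le_nr_fr hk) hv (by positivity) h1 hmk
      have h4 : ‖cf 0 (fun x => h i j x α β) k‖ ≤ B₂ / W + (E / W + n ^ 2 * (B₂ / W)) := by
        rw [H.cf_h hn1 hN i j α β k]
        refine (norm_add_le _ _).trans (add_le_add (hmk i j) ?_)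
        split_ifs
        · exact h3
        · rw [norm_zero]
          positivity
      have h5 : B₂ / W + (E / W + n ^ 2 * (B₂ / W)) = ((n ^ 2 + 1) * B₂ + E) / W := by
        field_simp
        ring
      rw [h5, le_div_iff₀ hWp, mul_comm] at h4
      rw [hB₃]
      linarith
    · have h1 := high_bd ((H.gd.sh i j α β).rd hA3).1 (H.nh i j α β) (P := n + 2) le_rfl ht hkt.le
      have h2 : 0 ≤ ((n : ℝ) ^ 2 + 1) * B₂ + E := by positivity
      rw [hB₃]
      linarith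
  -- `q`
  have hq : ∀ i α β (k : Ix n), k ≠ 0 →
      wt k ^ (n + 1) * ‖cf 0 (fun x => q i x α β) k‖ ≤ B₃ := by
    intro i α β k hk
    have hwp : 0 < wt k := H501.wt_pos k
    have hWp : 0 < wt k ^ (n + 2) := pow_pos hwp _
    have h0 : 0 ≤ ((n : ℝ) ^ 2 + 1) * B₂ := by positivity
    rcases le_or_gt (wt k) t with hkt | hkt
    · set X : ℝ := nr (fr 0 k) with hX
      have hX1 : 1 ≤ X := one_le_nr_fr hk
      have h1 : ‖cf 0 (fun x => q i x α β) k‖ ≤ X * (E / wt k ^ (n + 2)) :=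
        vec_bound (Q := fun i => cf 0 (fun x => q i x α β) k) hX1 (H.dq α β k) (by positivity)
          (fun v hv hvo => (H.low hC0 hC hCε ha bh bq ht hta hk hkt hv hvo α β).2) i
      have h2 : wt k ^ (n + 1) * ‖cf 0 (fun x => q i x α β) k‖ ≤ E := by
        calc wt k ^ (n + 1) * ‖cf 0 (fun x => q i x α β) k‖
            ≤ wt k ^ (n + 1) * (wt k * (E / wt k ^ (n + 2))) := by
              refine mul_le_mul_of_nonneg_left (h1.trans ?_) (pow_nonneg hwp.le _)
              exact mul_le_mul_of_nonneg_right (nr_fr_le k) (by positivity)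
          _ = E := by
              have h3 : wt k ^ (n + 1) * (wt k * (E / wt k ^ (n + 2)))
                  = E * (wt k ^ (n + 2) / wt k ^ (n + 2)) := by ring
              rw [h3, div_self hWp.ne', mul_one]
      rw [hB₃]
      linarith
    · have h1 := high_bd ((H.gd.sq i α β).rd hA3).1 (H.nq i α β) (P := n + 1) (by omega) ht hkt.le
      rw [hB₃]
      linarith
  have hfin : S * B₃ ≤ (R' + cg + cm + C) * ε * a + K * (Y + Z) := by
    have h1 : S * B₃ = R' * ε * a + K * (Y + Z) := by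
      rw [hB₃, hB₂, hB₁, hE, hR', hr₁, hK]
      ring
    rw [h1, hexp]
    have h2 : 0 ≤ cg * ε * a := by positivity
    have h3 : 0 ≤ cm * ε * a := by positivity
    have h4 : 0 ≤ C * ε * a := by positivity
    have h5 : (R' * ε + cg * ε + cm * ε + C * ε) * a
        = R' * ε * a + cg * ε * a + cm * ε * a + C * ε * a := by ring
    rw [h5]
    linarith
  exact ⟨fun i j α β => (all_bd hA3 hn1 (by omega) (H.gd.sh i j α β) (hh i j α β) hB₃0).le hfin,
    fun i α β => (all_bd hA3 hn1 le_rfl (H.gd.sq i α β) (hq i α β) hB₃0).le hfin⟩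

end Vale.Agent.P088.LR.U.H599
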