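import Vale.Agent.P088.H599.J.Abs8
import Vale.Agent.P088.H106.URed
import Vale.Agent.P088.H106.UGAU
import Vale.Agent.P088.H634.UCore
import Vale.Agent.P088.H738.URig
import Vale.Agent.P088.H798.UTop
import Vale.Agent.P088.H159.USm
import Vale.Agent.P088.H535.USmk
import Vale.Agent.P088.H705.UFin
import Vale.Agent.P088.H925.UInt
import Vale.Agent.P088.H292.UPush
import Vale.Agent.P088.H91.UInv
import Vale.Agent.P088.H91.UCoo
import Vale.Agent.P088.H952.URot
import Vale.Agent.P088.H27.JG2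
import Vale.Agent.P088.H501.A12
import Vale.Agent.P088.H776.A3
import Vale.Agent.P088.H102.Neu
import Vale.Agent.P088.H833.Phi
import Vale.Agent.P088.H72.Norm
import Vale.Agent.P088.H393.UEsf8
import Vale.Agent.P088.H393.CGM5
import Vale.Agent.P088.H393.CFSym
import Vale.Agent.P088.H884.A4

/-!
# P088, joint local uniqueness: assembly
-/

open MeasureTheory Set
open scoped ContDiff Matrix

noncomputable section

namespace Vale.Agent.P088.LR.U

open Vale.Agent.P088.LR.CF

/-- Joint local uniqueness from row U_ESF. -/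
theorem loc_of (hE : RowESFU) : ∀ n N : ℕ, 3 ≤ n → 1 ≤ N →
    ∃ k : ℕ, ∀ R : ℝ, 0 < R → ∃ ε > 0, LocU n N k R ε := by
  intro n N hn hN
  have hA1 : RowA1 := H501.rowA1
  have hA2 : RowA2 := H501.rowA2
  have hA3 : RowA3 := H776.rowA3
  have hES : RowES2U := R952.rot (H925.intU hA3) hE
  have hABS : RowABSU := H599.abs hES hA2 hA3
  have hG2 : RowG2U := H27.rowG2U hA1 hA2 hA3 H102.neu
  have hCORE := H634.ucore H106.red H106.gau H159.smu H91.inv hABS H705.ufin hA3
  exact H798.top n N hn hN (rig738 hA3 H72.norm1 hG2 H91.coo H833.phi H292.UP.puu H535.smk hCORE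
    n N (by omega) hN)

/-- Joint local uniqueness. -/
theorem loc : ∀ n N : ℕ, 3 ≤ n → 1 ≤ N →
    ∃ k : ℕ, ∀ R : ℝ, 0 < R → ∃ ε > 0, LocU n N k R ε :=
  loc_of (H393.esf (CF.H393.cgm CF.H393.sym H501.rowA1 H501.rowA2 H776.rowA3
    (H884.a4 H501.rowA2 H776.rowA3) H102.neu) H501.rowA2 H776.rowA3)

end Vale.Agent.P088.LR.U
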